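import Vale.Agent.P025.R2.H816.HK
import Vale.Agent.P025.R2.H587.HTDefs

/-!
# Systems with a given first element (helper16, P025 G-RANK2)
-/

universe u

open Vale.Agent.P019P P025H816 P025H587

namespace P025H16

section

variable {C K : Type u} [Field C] [Field K] [Algebra C K] [CFF C K]

/-- values in terms of orders -/
theorem valuation_eq_of_ord (P : Plk C K) {x y : K} (hx : x ≠ 0) (hy : y ≠ 0)
    (h : ord P x = ord P y) : P.1.valuation x = P.1.valuation y := by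
  have h1 : ord P (x * y⁻¹) = 0 := by rw [ord_mul P hx (inv_ne_zero hy), ord_inv, h]; ring
  have h2 : ord P (y * x⁻¹) = 0 := by rw [ord_mul P hy (inv_ne_zero hx), ord_inv, h]; ring
  have h3 : x * y⁻¹ ∈ P.1 := (mem_iff_ord P _).2 (Or.inr h1.ge)
  have h4 : y * x⁻¹ ∈ P.1 := (mem_iff_ord P _).2 (Or.inr h2.ge)
  rw [← ValuationSubring.valuation_le_one_iff, map_mul, map_inv₀] at h3 h4
  have hx' : P.1.valuation x ≠ 0 := by simpa using hx
  have hy' : P.1.valuation y ≠ 0 := by simpa using hy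
  rw [← div_eq_mul_inv, div_le_one₀ (zero_lt_iff.2 hy')] at h3
  rw [← div_eq_mul_inv, div_le_one₀ (zero_lt_iff.2 hx')] at h4
  exact le_antisymm h3 h4

theorem ord_eq_of_valuation (P : Plk C K) {x y : K} (hx : x ≠ 0) (hy : y ≠ 0)
    (h : P.1.valuation x = P.1.valuation y) : ord P x = ord P y := by
  have hx' : P.1.valuation x ≠ 0 := by simpa using hx
  have hy' : P.1.valuation y ≠ 0 := by simpa using hy
  have h3 : x * y⁻¹ ∈ P.1 := by
    rw [← ValuationSubring.valuation_le_one_iff, map_mul, map_inv₀, h, mul_inv_cancel₀ hy']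
  have h4 : y * x⁻¹ ∈ P.1 := by
    rw [← ValuationSubring.valuation_le_one_iff, map_mul, map_inv₀, h, mul_inv_cancel₀ hy']
  have h5 := ((mem_iff_ord P _).1 h3).resolve_left (mul_ne_zero hx (inv_ne_zero hy))
  have h6 := ((mem_iff_ord P _).1 h4).resolve_left (mul_ne_zero hy (inv_ne_zero hx))
  rw [ord_mul P hx (inv_ne_zero hy), ord_inv] at h5
  rw [ord_mul P hy (inv_ne_zero hx), ord_inv] at h6
  omega

/-- the condition `DivBy` in terms of the orders at the places. -/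
theorem divBy_iff {q : ℕ} (hq : q ≠ 0) {f : K} (hf : f ≠ 0) :
    DivBy C q f ↔ ∀ P : Plk C K, (q : ℤ) ∣ ord P f := by
  constructor
  · intro h P
    obtain ⟨g, hg⟩ := h P.1 P.2.1
    have hg0 : g ≠ 0 := by
      rintro rfl
      rw [map_zero, zero_pow hq, map_eq_zero] at hg
      exact hf hg
    rw [← map_pow] at hg
    rw [ord_eq_of_valuation P hf (pow_ne_zero q hg0) hg, Vale.Agent.P019P.ord_pow]
    exact dvd_mul_right _ _
  · intro h O hO
    by_cases htop : O = ⊤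
    · refine ⟨1, ?_⟩
      subst htop
      rw [map_one, one_pow]
      have h1 : f ∈ (⊤ : ValuationSubring K) := trivial
      have h2 : f⁻¹ ∈ (⊤ : ValuationSubring K) := trivial
      rw [← ValuationSubring.valuation_le_one_iff] at h1 h2
      rw [map_inv₀] at h2
      have hf' : (⊤ : ValuationSubring K).valuation f ≠ 0 := by simpa using hf
      exact le_antisymm h1 ((inv_le_one₀ (zero_lt_iff.2 hf')).1 h2)
    · obtain ⟨P, rfl⟩ : ∃ P : Plk C K, P.1 = O := ⟨⟨O, hO, htop⟩, rfl⟩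
      obtain ⟨n, hn⟩ := h P
      obtain ⟨π, hπ0, hπ⟩ := Vale.Agent.P019P.exists_unif P
      refine ⟨π ^ n, ?_⟩
      rw [← map_pow]
      refine valuation_eq_of_ord P hf (pow_ne_zero _ (zpow_ne_zero _ hπ0)) ?_
      rw [hn, Vale.Agent.P019P.ord_pow, Vale.Agent.P019P.ord_zpow, hπ, mul_one]

theorem dv_pow (f : K) (n : ℕ) : dv C (f ^ n) = n • dv C f := by
  ext P
  rw [dv_apply, Vale.Agent.P019P.ord_pow, Finsupp.smul_apply, dv_apply, nsmul_eq_mul]

/-- one step -/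
theorem exists_step {p : ℕ} (hp : (p : C) ≠ 0) (m : ℕ) {f : K} (hf : f ≠ 0)
    (h : ∀ P : Plk C K, ((p ^ m : ℕ) : ℤ) ∣ ord P f) :
    ∃ g : K, g ≠ 0 ∧ ∀ P : Plk C K, ((p ^ (m + 1) : ℕ) : ℤ) ∣ ord P (f * g ^ p ^ m) := by
  obtain ⟨E, hE⟩ := exists_halfdiv (k := C) (F := K) (n := p ^ m) (f := Units.mk0 f hf) h
  have hp0 : p ≠ 0 := by rintro rfl; simp at hp
  have hdE : dg E = 0 := by
    refine dg_of_tors (n := p ^ m) (pow_ne_zero _ hp0) (D := E) ?_
    rw [hE]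
    exact ⟨f, hf, rfl⟩
  obtain ⟨u, E', hu, -, hdv⟩ := exists_dv (k := C) (F := K) hp hdE
  refine ⟨u⁻¹, inv_ne_zero hu, fun P => ?_⟩
  have h1 : dv C (u ^ p ^ m) = dv C f - (p ^ (m + 1)) • E' := by
    have hE' : p ^ m • E = dv C f := hE
    rw [dv_pow, hdv, smul_sub, hE', ← mul_smul, ← pow_succ]
  have h2 := DFunLike.congr_fun h1 P
  rw [Finsupp.sub_apply, Finsupp.smul_apply, dv_apply, dv_apply, nsmul_eq_mul] at h2
  rw [ord_mul P hf (pow_ne_zero _ (inv_ne_zero hu)), inv_pow, ord_inv, h2]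
  exact ⟨E' P, by ring⟩

/-- the sequence `f_(m+1)` with the divisibility of its divisor -/
noncomputable def seqAux {p : ℕ} (hp : (p : C) ≠ 0) (f1 : K) (hf1 : f1 ≠ 0)
    (h1 : ∀ P : Plk C K, ((p ^ 1 : ℕ) : ℤ) ∣ ord P f1) :
    (m : ℕ) → {f : K // f ≠ 0 ∧ ∀ P : Plk C K, ((p ^ (m + 1) : ℕ) : ℤ) ∣ ord P f}
  | 0 => ⟨f1, hf1, h1⟩
  | m + 1 =>
    let f := seqAux hp f1 hf1 h1 m
    ⟨f.1 * (exists_step hp (m + 1) f.2.1 f.2.2).choose ^ p ^ (m + 1),
      mul_ne_zero f.2.1 (pow_ne_zero _ (exists_step hp (m + 1) f.2.1 f.2.2).choose_spec.1),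
      (exists_step hp (m + 1) f.2.1 f.2.2).choose_spec.2⟩

/-- **a function with divisor divisible by `p` is the first element of a system.** -/
theorem exists_sys {p : ℕ} (hp : (p : C) ≠ 0) {f1 : K} (hf1 : f1 ≠ 0)
    (h1 : ∀ P : Plk C K, (p : ℤ) ∣ ord P f1) :
    ∃ f : ℕ → K, IsSys C p f ∧ f 1 = f1 := by
  have hp0 : p ≠ 0 := by rintro rfl; simp at hp
  have h1' : ∀ P : Plk C K, ((p ^ 1 : ℕ) : ℤ) ∣ ord P f1 := by simpa using h1
  let F := seqAux hp f1 hf1 h1'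
  refine ⟨fun m => Nat.casesOn m f1 fun n => (F n).1, ⟨?_, ?_, ?_⟩, rfl⟩
  · rintro (_ | m)
    · exact hf1
    · exact (F m).2.1
  · rintro (_ | m)
    · exact (divBy_iff (by simp) hf1).2 fun P => by simp
    · exact (divBy_iff (pow_ne_zero _ hp0) (F m).2.1).2 (F m).2.2
  · rintro (_ | m)
    · exact ⟨1, by simp [F, seqAux]⟩
    · exact ⟨(exists_step hp (m + 1) (F m).2.1 (F m).2.2).choose, rfl⟩

/-- elements of a system are congruent modulo `p`-th powers -/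
theorem IsSys.eq_mul_pow {p : ℕ} (hp : p ≠ 0) {f : ℕ → K} (hf : IsSys C p f) (m : ℕ) :
    ∃ h : K, h ≠ 0 ∧ f (m + 1) = f 1 * h ^ p := by
  induction m with
  | zero => exact ⟨1, one_ne_zero, by simp⟩
  | succ m ih =>
    obtain ⟨h, hh, ih⟩ := ih
    obtain ⟨g, hg⟩ := hf.succ (m + 1)
    have hg0 : g ≠ 0 := by
      rintro rfl
      rw [zero_pow (pow_ne_zero _ hp), mul_zero] at hg
      exact hf.ne _ hg
    refine ⟨h * g ^ p ^ m, mul_ne_zero hh (pow_ne_zero _ hg0), ?_⟩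
    rw [hg, ih, mul_pow, ← pow_mul, ← pow_succ, mul_assoc]

end

end P025H16
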