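import Vale.Agent.P025.R2.H16.Pts
import Vale.Agent.P025.R2.H450.RnsDef
import Vale.Agent.P025.R2.H816.Emb
import Vale.Agent.P025.R2.H837.Deg

/-!
# Application of Lemma G (helper16, P025 G-RANK2)

From covers with non-powers at all points of `D(K)` to the point `v` with residue field `K1`.
-/

universe u

open TensorProduct P025H373 P025H628 P025H544 P025H492 P025H837 P025H450 Vale.Agent.P019P
open P025H816

namespace P025H16

/-! ### Transport along isomorphisms -/

section transport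

variable {F A K L L' : Type*} [Field F] [Field A] [Field K] [Field L] [Field L'] [Algebra F A]
  [Algebra F K] [Algebra F L] [Algebra F L'] [Algebra K L] [Algebra K L'] [IsScalarTower F K L]
  [IsScalarTower F K L']

theorem notPow_equiv (e : L ≃ₐ[F] L') {l : ℕ} {b : L} {P : Pt F A L} (h : NotPow l F A b P) :
    NotPow l F A (e b) (ptMap F A (e.symm : L' →ₐ[F] L) P) := by
  intro z hz
  rw [mem_ptMap, map_sub, map_pow, tL_tmul] at hz
  refine h (tL F A (e.symm : L' →ₐ[F] L) z) ?_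
  have h1 : (e.symm : L' →ₐ[F] L) (e b) = b := e.symm_apply_apply b
  rwa [h1] at hz

end transport

section

variable {C : Type u} [NontriviallyNormedField C] [IsUltrametricDist C] [CompleteSpace C]
  [IsAlgClosed C] {K : Type u} [Field K] [Algebra C K] [Algebra (RatFunc C) K]
  [IsScalarTower C (RatFunc C) K] [CFF C K]

/-- the data of `RNSat` at a point of `D(K)` -/
def RNSd (N l : ℕ) (c : Cˣ) (d : Pt (RatFunc C) (F2r C c) K) : Prop :=
  ∃ (L : Type u) (_ : Field L) (_ : Algebra C L) (_ : Algebra K L) (_ : Algebra (RatFunc C) L)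
    (_ : IsScalarTower C K L) (_ : IsScalarTower C (RatFunc C) L)
    (_ : IsScalarTower (RatFunc C) K L) (_ : CFF C L), Cov N C K L ∧
    ∃ β : L, β ≠ 0 ∧ (∀ Q : Plk C L, (l : ℤ) ∣ ord Q β) ∧
      (∃ x : F1r C c ⊗[RatFunc C] L, x ^ l = 1 ⊗ₜ β) ∧
      ∃ d' : Pt (RatFunc C) (F2r C c) L,
        ptMap (RatFunc C) (F2r C c) (IsScalarTower.toAlgHom (RatFunc C) K L) d' = d ∧
        NotPow l (RatFunc C) (F2r C c) β d'

theorem rnsd_of_rnsat {N l : ℕ} {c : Cˣ} {P : Plk C K} (h : RNSat C N l P c)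
    {d : Pt (RatFunc C) (F2r C c) K} (hd : ∀ d', OnD C c P d' → d' = d) : RNSd N l c d := by
  obtain ⟨L, i1, i2, i3, i4, i5, i6, i7, i8, hc, β, h0, h1, h2, d', h3, h4⟩ := h
  exact ⟨L, i1, i2, i3, i4, i5, i6, i7, i8, hc, β, h0, h1, h2, d', hd _ h3, h4⟩

variable {Om : Type u} [Field Om] [Algebra C Om] [Algebra K Om] [IsScalarTower C K Om]
  [Algebra (RatFunc C) Om] [IsScalarTower (RatFunc C) K Om]

theorem exists_in_Om (hOm : KumClosed C K Om) [CharZero C] {N l : ℕ} (hl : l ≠ 0) {c : Cˣ}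
    {d : Pt (RatFunc C) (F2r C c) K} (h : RNSd N l c d) :
    ∃ (L : IntermediateField K Om) (_ : FiniteDimensional K L) (_ : IsGalois K L),
      (∃ k, Module.finrank K L ∣ N ^ k) ∧ Group.IsSolvable (L ≃ₐ[K] L) ∧
      ∃ (β : L) (y : Om) (x : F1r C c ⊗[RatFunc C] L) (D : Pt (RatFunc C) (F2r C c) L),
        β ≠ 0 ∧ y ^ l = β ∧ x ^ l = (1 : F1r C c) ⊗ₜ[RatFunc C] β ∧
        ptMap (RatFunc C) (F2r C c) (IsScalarTower.toAlgHom (RatFunc C) K L) D = d ∧
        NotPow l (RatFunc C) (F2r C c) β D := by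
  obtain ⟨L, i1, i2, i3, i4, i5, i6, i7, i8, hc, β, h0, h1, ⟨x, h2⟩, d', h3, h4⟩ := h
  have hfin := hc.fin
  have hgal := hc.gal
  obtain ⟨i⟩ := exists_embedding (C := C) (K := K) (M := L) (Z := Om) hc.sol (fun Q => hc.unr Q) hOm
  let L' : IntermediateField K Om := i.fieldRange
  let e : L ≃ₐ[K] L' := AlgEquiv.ofInjectiveField i
  have hfin' : FiniteDimensional K L' := e.toLinearEquiv.finiteDimensional
  have hgal' : IsGalois K L' := IsGalois.of_algEquiv e
  let eF : L ≃ₐ[RatFunc C] L' := e.restrictScalars (RatFunc C)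
  have hcff' : CFF C L' := cff_of_finite (K := K)
  have hord : ∀ Q : Plk C L', (l : ℤ) ∣ ord Q (e β) := by
    intro Q
    have h5 := ord_tr (e.restrictScalars C) (tr (e.restrictScalars C).symm Q) β
    rw [tr_tr_symm] at h5
    have h6 : ord Q (e β) = ord (tr (e.restrictScalars C).symm Q) β := h5
    rw [h6]
    exact h1 _
  obtain ⟨y, hy⟩ := hOm L' l (e β) hl (by simpa using h0) hord
  refine ⟨L', hfin', hgal', ?_, ?_, e β, y, tL (RatFunc C) (F1r C c) (eF : L →ₐ[RatFunc C] L') x,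
    ptMap (RatFunc C) (F2r C c) (eF.symm : L' →ₐ[RatFunc C] L) d', by simpa using h0, hy, ?_, ?_,
    notPow_equiv eF h4⟩
  · obtain ⟨k, hk⟩ := hc.deg
    exact ⟨k, by rwa [← e.toLinearEquiv.finrank_eq]⟩
  · have hsol : Group.IsSolvable (L ≃ₐ[K] L) := hc.sol
    exact solvable_of_surjective (f := (AlgEquiv.autCongr e).toMonoidHom)
      (AlgEquiv.autCongr e).surjective
  · rw [← map_pow, h2, tL_tmul]
    rfl
  · rw [ptMap_comp, ← h3]
    congr 1
    apply AlgHom.ext
    intro z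
    exact e.symm_apply_eq.2 (e.commutes z).symm

/-- **Application of Lemma G.** -/
theorem lemG_app [CharZero C] [FiniteDimensional (RatFunc C) K] [IsGalois K Om]
    (hOm : KumClosed C K Om) {N l : ℕ} (hl : l.Prime) (hlN : Nat.Coprime l N) {c : Cˣ}
    (hK : IsField (F1r C c ⊗[RatFunc C] K))
    (h : ∀ d : Pt (RatFunc C) (F2r C c) K, RNSd N l c d) :
    ∃ (Z : IntermediateField K Om) (_ : FiniteDimensional K Z) (v : Pt (RatFunc C) (F1r C c) Z),
      ResBij (RatFunc C) (F1r C c) K Z v ∧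
      (∀ e e' : Pt (RatFunc C) (F0r C c) Z, edge (RatFunc C) (F1r C c) (F0r C c) Z e = v →
        edge (RatFunc C) (F1r C c) (F0r C c) Z e' = v →
        Relation.ReflTransGen (Step (RatFunc C) (F1r C c) (F2r C c) (F0r C c) Z v)
          (edge (RatFunc C) (F2r C c) (F0r C c) Z e) (edge (RatFunc C) (F2r C c) (F0r C c) Z e')) ∧
      ∃ W : IntermediateField K Om, Z ≤ W ∧ FiniteDimensional K W ∧ IsGalois K W ∧
        (∃ k, Module.finrank K W ∣ (N * l) ^ k) ∧ Group.IsSolvable (W ≃ₐ[K] W) := by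
  have hch : CharZero (RatFunc C) :=
    charZero_of_injective_algebraMap (algebraMap C (RatFunc C)).injective
  choose L hLf hLg hLd hLs β y x D hβ0 hy hx hD hnp using
    fun d => exists_in_Om (Om := Om) hOm hl.ne_zero (h d)
  have hl0 : NeZero (l : C) := ⟨by exact_mod_cast hl.ne_zero⟩
  have hl1 : NeZero l := ⟨hl.ne_zero⟩
  obtain ⟨ζ, hζ⟩ : ∃ ζ : C, IsPrimitiveRoot ζ l :=
    HasEnoughRootsOfUnity.exists_primitiveRoot C l
  have hζ' : IsPrimitiveRoot (algebraMap C (RatFunc C) ζ) l :=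
    hζ.map_of_injective (algebraMap C (RatFunc C)).injective
  obtain ⟨Z, hZ, v, h1, h2, W, h3, h4, h5, h6, h7⟩ :=
    lemG_exists_deg (F0 := F0r C c) hK hl hlN hζ' L hLd β hβ0 y hy x hx D hD hnp
  exact ⟨Z, hZ, v, h1, h2, W, h3, h4, h5, h6, h7 hLs⟩

end

end P025H16
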