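import Vale.Agent.P025.R2.H544.Defs

/-!
# A point with residue ring `F1 ⊗ K` and its edges (helper16, P025 G-RANK2)

`v` a point of `V(Z)` with `F1 ⊗ K → (F1 ⊗ Z) / v` bijective, `F1 ⊗ K` a field.  Every edge `w` of
`K` lifts to an edge `e` of `Z` at `v` with the same residue field.
-/

open TensorProduct P025H544

namespace P025H16

section

variable {F F1 F0 K Z : Type*} [Field F] [Field F1] [Field F0]
  [Algebra F F1] [Algebra F F0] [Algebra F1 F0] [IsScalarTower F F1 F0] [Field K] [Field Z]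
  [Algebra F K] [Algebra F Z] [Algebra K Z] [IsScalarTower F K Z]

/-- bijectivity of the residue map at `v` -/
def ResBij (F F1 K Z : Type*) [Field F] [Field F1] [Algebra F F1] [Field K] [Field Z]
    [Algebra F K] [Algebra F Z] [Algebra K Z] [IsScalarTower F K Z] (v : Pt F F1 Z) : Prop :=
  Function.Bijective (fun a : F1 ⊗[F] K =>
    Ideal.Quotient.mk v.asIdeal (tL F F1 (IsScalarTower.toAlgHom F K Z) a))

/-- the residue isomorphism at `v` -/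
noncomputable def resEquiv {v : Pt F F1 Z} (hv : ResBij F F1 K Z v) :
    F1 ⊗[F] K ≃ₐ[F1] (F1 ⊗[F] Z) ⧸ v.asIdeal :=
  AlgEquiv.ofBijective ((Ideal.Quotient.mkₐ F1 v.asIdeal).comp
    (tL F F1 (IsScalarTower.toAlgHom F K Z))) hv

/-- the retraction `F1 ⊗ Z → F1 ⊗ K` -/
noncomputable def rtr {v : Pt F F1 Z} (hv : ResBij F F1 K Z v) : F1 ⊗[F] Z →ₐ[F1] F1 ⊗[F] K :=
  ((resEquiv hv).symm : _ →ₐ[F1] F1 ⊗[F] K).comp (Ideal.Quotient.mkₐ F1 v.asIdeal)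

theorem rtr_tL {v : Pt F F1 Z} (hv : ResBij F F1 K Z v) (a : F1 ⊗[F] K) :
    rtr hv (tL F F1 (IsScalarTower.toAlgHom F K Z) a) = a := by
  change (resEquiv hv).symm ((resEquiv hv) a) = a
  exact AlgEquiv.symm_apply_apply _ _

theorem rtr_eq_zero {v : Pt F F1 Z} (hv : ResBij F F1 K Z v) (x : F1 ⊗[F] Z) :
    rtr hv x = 0 ↔ x ∈ v.asIdeal := by
  change (resEquiv hv).symm (Ideal.Quotient.mk v.asIdeal x) = 0 ↔ _
  rw [EmbeddingLike.map_eq_zero_iff, Ideal.Quotient.eq_zero_iff_mem]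

/-- `Z → F0 ⊗ K` -/
noncomputable def zHom (F0 : Type*) [Field F0] [Algebra F F0] [Algebra F1 F0]
    [IsScalarTower F F1 F0] {v : Pt F F1 Z} (hv : ResBij F F1 K Z v) : Z →ₐ[F] F0 ⊗[F] K :=
  (bc F F1 F0 K).comp (((rtr hv).restrictScalars F).comp Algebra.TensorProduct.includeRight)

/-- `F0 ⊗ Z → F0 ⊗ K` -/
noncomputable def rtr0 (F0 : Type*) [Field F0] [Algebra F F0] [Algebra F1 F0]
    [IsScalarTower F F1 F0] {v : Pt F F1 Z} (hv : ResBij F F1 K Z v) :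
    F0 ⊗[F] Z →ₐ[F0] F0 ⊗[F] K :=
  Algebra.TensorProduct.lift (Algebra.ofId F0 (F0 ⊗[F] K)) (zHom F0 hv)
    (fun _ _ => Commute.all _ _)

theorem rtr0_tmul {v : Pt F F1 Z} (hv : ResBij F F1 K Z v) (a : F0) (z : Z) :
    rtr0 F0 hv (a ⊗ₜ z) = (a ⊗ₜ 1) * bc F F1 F0 K (rtr hv (1 ⊗ₜ z)) := by
  rw [rtr0, Algebra.TensorProduct.lift_tmul]
  rfl

theorem rtr0_tL {v : Pt F F1 Z} (hv : ResBij F F1 K Z v) (a : F0 ⊗[F] K) :
    rtr0 F0 hv (tL F F0 (IsScalarTower.toAlgHom F K Z) a) = a := by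
  induction a with
  | zero => simp
  | add x y hx hy => rw [map_add, map_add, hx, hy]
  | tmul a k =>
    have h1 : rtr hv ((1 : F1) ⊗ₜ[F] (IsScalarTower.toAlgHom F K Z k)) = 1 ⊗ₜ k := by
      rw [← tL_tmul, rtr_tL]
    rw [tL_tmul, rtr0_tmul, h1, bc_tmul, map_one, Algebra.TensorProduct.tmul_mul_tmul, mul_one,
      one_mul]

theorem rtr0_bc {v : Pt F F1 Z} (hv : ResBij F F1 K Z v) (x : F1 ⊗[F] Z) :
    rtr0 F0 hv (bc F F1 F0 Z x) = bc F F1 F0 K (rtr hv x) := by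
  induction x with
  | zero => simp
  | add x y hx hy => rw [map_add, map_add, map_add, map_add, hx, hy]
  | tmul a z =>
    have h1 : (a ⊗ₜ[F] z : F1 ⊗[F] Z) = (algebraMap F1 (F1 ⊗[F] Z) a) * (1 ⊗ₜ z) := by
      rw [Algebra.TensorProduct.algebraMap_apply, Algebra.TensorProduct.tmul_mul_tmul, mul_one,
        one_mul]
      rfl
    have h2 : rtr hv (a ⊗ₜ[F] z) = (a ⊗ₜ 1) * rtr hv (1 ⊗ₜ z) := by
      rw [h1, map_mul, AlgHom.commutes, Algebra.TensorProduct.algebraMap_apply]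
      rfl
    rw [bc_tmul, rtr0_tmul, h2, map_mul, bc_tmul]

theorem rtr0_surjective {v : Pt F F1 Z} (hv : ResBij F F1 K Z v) :
    Function.Surjective (rtr0 F0 hv) := fun a => ⟨_, rtr0_tL hv a⟩

/-- the edge of `Z` at `v` over the edge `w` of `K` -/
noncomputable def liftE {v : Pt F F1 Z} (hv : ResBij F F1 K Z v) (w : Pt F F0 K) : Pt F F0 Z :=
  PrimeSpectrum.comap (rtr0 F0 hv).toRingHom w

theorem mem_liftE {v : Pt F F1 Z} (hv : ResBij F F1 K Z v) (w : Pt F F0 K) (x : F0 ⊗[F] Z) :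
    x ∈ (liftE hv w).asIdeal ↔ rtr0 F0 hv x ∈ w.asIdeal := Iff.rfl

theorem ptMap_liftE {v : Pt F F1 Z} (hv : ResBij F F1 K Z v) (w : Pt F F0 K) :
    ptMap F F0 (IsScalarTower.toAlgHom F K Z) (liftE hv w) = w := by
  ext x
  change rtr0 F0 hv (tL F F0 (IsScalarTower.toAlgHom F K Z) x) ∈ w.asIdeal ↔ _
  rw [rtr0_tL]

theorem edge_liftE (hK : IsField (F1 ⊗[F] K)) {v : Pt F F1 Z} (hv : ResBij F F1 K Z v)
    (w : Pt F F0 K) : edge F F1 F0 Z (liftE hv w) = v := by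
  ext x
  change rtr0 F0 hv (bc F F1 F0 Z x) ∈ w.asIdeal ↔ _
  rw [rtr0_bc]
  have h1 : ∀ y : F1 ⊗[F] K, bc F F1 F0 K y ∈ w.asIdeal ↔ y = 0 := by
    intro y
    constructor
    · intro h
      by_contra hy
      obtain ⟨z, hz⟩ := hK.mul_inv_cancel hy
      apply w.2.ne_top
      rw [Ideal.eq_top_iff_one, ← map_one (bc F F1 F0 K), ← hz, map_mul]
      exact Ideal.mul_mem_right _ _ h
    · rintro rfl
      rw [map_zero]
      exact w.asIdeal.zero_mem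
  rw [h1, rtr_eq_zero]

/-- the residue fields agree -/
noncomputable def resE {v : Pt F F1 Z} (hv : ResBij F F1 K Z v) (w : Pt F F0 K) :
    ((F0 ⊗[F] Z) ⧸ (liftE hv w).asIdeal) ≃ₐ[F0] ((F0 ⊗[F] K) ⧸ w.asIdeal) :=
  (Ideal.quotientEquivAlgOfEq F0 (by
    ext x
    rw [mem_liftE, RingHom.mem_ker]
    change _ ↔ Ideal.Quotient.mk w.asIdeal (rtr0 F0 hv x) = 0
    rw [Ideal.Quotient.eq_zero_iff_mem])).trans
  (Ideal.quotientKerAlgEquivOfSurjective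
    (f := (Ideal.Quotient.mkₐ F0 w.asIdeal).comp (rtr0 F0 hv))
    (Ideal.Quotient.mk_surjective.comp (rtr0_surjective hv)))

theorem resE_mk {v : Pt F F1 Z} (hv : ResBij F F1 K Z v) (w : Pt F F0 K) (x : F0 ⊗[F] Z) :
    resE hv w (Ideal.Quotient.mk _ x) = Ideal.Quotient.mk _ (rtr0 F0 hv x) := rfl

theorem norm_liftE {v : Pt F F1 Z} (hv : ResBij F F1 K Z v) (w : Pt F F0 K) (x : F0 ⊗[F] K) :
    Algebra.norm F0 (Ideal.Quotient.mk (liftE hv w).asIdeal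
      (tL F F0 (IsScalarTower.toAlgHom F K Z) x)) =
    Algebra.norm F0 (Ideal.Quotient.mk w.asIdeal x) := by
  rw [← Algebra.norm_eq_of_algEquiv (resE hv w), resE_mk, rtr0_tL]

end

end P025H16
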