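import Vale.Agent.P025.R2.H16.WdLim
import Vale.Agent.P025.R2.H16.Sys
import Vale.Agent.P025.R2.H16.Pts
import Vale.Agent.P025.R2.H613.Main
import Vale.Agent.P025.R2.H837.LemG

/-!
# Rank two: the core of (8.1) (helper16, P025 G-RANK2)

`Z / K` finite, `v` a point of `V(Z)` with residue ring `F1 ⊗ K` (a field) whose neighbours are
connected without `v`, `w₁ ≠ w₂` two edges of `K`, `w₁` the only edge at its end point in `D(K)`.
A system on `K` has Hodge-Tate form with residue zero at (the lift of) `w₁`, and there is a system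
on `Z` with nonzero residue there.
-/

universe u

open TensorProduct P025H373 P025H544 P025H628 P025H613 P025H837 P025H587 Vale.Agent.P019P
open P025H816 Filter Topology

namespace P025H16

theorem hconn_of_path {F F1 F2 F0 Z X : Type*} [Field F] [Field F1] [Field F2] [Field F0]
    [Algebra F F1] [Algebra F F2] [Algebra F F0] [Algebra F1 F0] [Algebra F2 F0]
    [IsScalarTower F F1 F0] [IsScalarTower F F2 F0] [Field Z] [Algebra F Z] [Nonempty X]
    {v : Pt F F1 Z}
    (hpath : ∀ e e' : Pt F F0 Z, edge F F1 F0 Z e = v → edge F F1 F0 Z e' = v →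
      Relation.ReflTransGen (Step F F1 F2 F0 Z v) (edge F F2 F0 Z e) (edge F F2 F0 Z e'))
    (α : Pt F F1 Z → X) (β : Pt F F2 Z → X)
    (h : ∀ w : Pt F F0 Z, edge F F1 F0 Z w ≠ v → α (edge F F1 F0 Z w) = β (edge F F2 F0 Z w)) :
    ∃ c : X, ∀ w : Pt F F0 Z, edge F F1 F0 Z w = v → β (edge F F2 F0 Z w) = c := by
  by_cases hE : ∃ e0 : Pt F F0 Z, edge F F1 F0 Z e0 = v
  · obtain ⟨e0, he0⟩ := hE
    refine ⟨β (edge F F2 F0 Z e0), fun w hw => ?_⟩
    have h1 := hpath e0 w he0 hw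
    have h2 : ∀ d, Relation.ReflTransGen (Step F F1 F2 F0 Z v) (edge F F2 F0 Z e0) d →
        β d = β (edge F F2 F0 Z e0) := by
      intro d hd
      induction hd with
      | refl => rfl
      | tail _ hs ih =>
        obtain ⟨e, e', h3, h4, h5, h6⟩ := hs
        rw [← ih, ← h3, ← h4, ← h e h6, ← h e' (h5 ▸ h6), h5]
    exact h2 _ h1
  · push Not at hE
    exact ⟨Classical.arbitrary X, fun w hw => absurd hw (hE w)⟩

section NatCast

variable {C : Type u} [NontriviallyNormedField C] [IsUltrametricDist C]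

theorem norm_int_le_one (n : ℤ) : ‖(n : C)‖ ≤ 1 := by
  induction n using Int.induction_on with
  | zero => simp
  | succ n ih =>
    push_cast at ih ⊢
    exact (IsUltrametricDist.norm_add_le_max _ _).trans (max_le ih norm_one.le)
  | pred n ih =>
    push_cast at ih ⊢
    rw [sub_eq_add_neg]
    exact (IsUltrametricDist.norm_add_le_max _ _).trans (max_le ih (by rw [norm_neg, norm_one]))

theorem norm_int_of_dvd {p m : ℕ} {n : ℤ} (h : ((p ^ m : ℕ) : ℤ) ∣ n) :
    ‖(n : C)‖ ≤ ‖(p : C)‖ ^ m := by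
  obtain ⟨k, rfl⟩ := h
  push_cast
  rw [norm_mul, norm_pow]
  exact mul_le_of_le_one_right (by positivity) (norm_int_le_one k)

theorem norm_int_sub_one {p : ℕ} (hp1 : ‖(p : C)‖ < 1) {n : ℤ} (h : (p : ℤ) ∣ n - 1) :
    ‖(n : C) - 1‖ ≤ ‖(p : C)‖ := by
  have h1 := norm_int_of_dvd (C := C) (p := p) (m := 1) (n := n - 1) (by simpa using h)
  simpa using h1

end NatCast

section

variable {C : Type u} [NontriviallyNormedField C] [IsUltrametricDist C] [CompleteSpace C]
  [IsAlgClosed C] [CharZero C]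

variable {K Z : Type u} [Field K] [Field Z] [Algebra C K] [Algebra C Z] [CFF C Z]
  [Algebra (RatFunc C) K] [Algebra (RatFunc C) Z] [Algebra K Z]
  [IsScalarTower C (RatFunc C) K] [IsScalarTower C (RatFunc C) Z]
  [IsScalarTower (RatFunc C) K Z] [FiniteDimensional (RatFunc C) K]
  [FiniteDimensional (RatFunc C) Z]

open Classical in
/-- **Core of (8.1).** -/
theorem rank2_core {p : ℕ} (hp : p.Prime) (hp1 : ‖(p : C)‖ < 1) (c : Cˣ)
    (hK : IsField (F1r C c ⊗[RatFunc C] K))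
    -- Lemma G
    {v : Pt (RatFunc C) (F1r C c) Z} (hv : ResBij (RatFunc C) (F1r C c) K Z v)
    (hpath : ∀ e e' : Pt (RatFunc C) (F0r C c) Z, edge (RatFunc C) (F1r C c) (F0r C c) Z e = v →
      edge (RatFunc C) (F1r C c) (F0r C c) Z e' = v →
      Relation.ReflTransGen (Step (RatFunc C) (F1r C c) (F2r C c) (F0r C c) Z v)
        (edge (RatFunc C) (F2r C c) (F0r C c) Z e) (edge (RatFunc C) (F2r C c) (F0r C c) Z e'))
    -- two edges of `K`, the windings of the system `f0` at `w1` tend to zero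
    (w1 w2 : Pt (RatFunc C) (F0r C c) K) (hw : w1 ≠ w2) {f0 : ℕ → K} (hf0 : ∀ m, f0 m ≠ 0)
    (hw1 : ∀ m, ((p ^ m : ℕ) : ℤ) ∣ wd (Wr C c) w1 (1 ⊗ₜ f0 m))
    -- moves
    {S : Subgroup Zˣ} (hS : ∀ f ∈ S, ∀ P : Plk C Z, (p : ℤ) ∣ ord P (f : Z))
    (hM : Moves (RatFunc C) (F1r C c) (F2r C c) (Wr C c) p S)
    {D : Derivation C Z Z} (hD : D ≠ 0) {θ0 : Z}
    (hθ0 : IsTheta p D (fun m => algebraMap K Z (f0 m)) θ0) :
    ∃ f' : ℕ → Z, IsSys C p f' ∧
      ∀ θ', IsTheta p D f' θ' → ∀ a : C, θ' ≠ algebraMap C Z a * θ0 := by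
  haveI : NeZero p := ⟨hp.ne_zero⟩
  have hpC : (p : C) ≠ 0 := by exact_mod_cast hp.ne_zero
  haveI : CharZero (RatFunc C) :=
    charZero_of_injective_algebraMap (algebraMap C (RatFunc C)).injective
  haveI hfin : FiniteDimensional (F0r C c) (F0r C c ⊗[RatFunc C] Z) := inferInstance
  haveI : IsArtinianRing (F0r C c ⊗[RatFunc C] Z) := IsArtinianRing.of_finite (F0r C c) _
  letI : Fintype (Pt (RatFunc C) (F0r C c) Z) := Fintype.ofFinite _
  set e1 := liftE (F0 := F0r C c) hv w1 with he1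
  set e2 := liftE (F0 := F0r C c) hv w2 with he2
  have hne : e1 ≠ e2 := by
    intro h
    apply hw
    rw [← ptMap_liftE (F0 := F0r C c) hv w1, ← ptMap_liftE (F0 := F0r C c) hv w2, ← he1, ← he2, h]
  have hee1 : edge (RatFunc C) (F1r C c) (F0r C c) Z e1 = v := edge_liftE hK hv w1
  have hee2 : edge (RatFunc C) (F1r C c) (F0r C c) Z e2 = v := edge_liftE hK hv w2
  obtain ⟨ζ, hζ⟩ : ∃ ζ : C, IsPrimitiveRoot ζ p := by
    haveI : NeZero (p : C) := ⟨hpC⟩
    exact HasEnoughRootsOfUnity.exists_primitiveRoot C p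
  have hζ' : IsPrimitiveRoot (algebraMap C (RatFunc C) ζ) p :=
    hζ.map_of_injective (algebraMap C (RatFunc C)).injective
  -- the first element of the system
  obtain ⟨f, hfS, hf⟩ := windings_at (n := p) (patch c) (isWind_Wr c) hζ' hM v
    (hconn_of_path hpath)
    (fun w => if w = e1 then 1 else if w = e2 then -1 else 0) (by
      have : ∑ w : Pt (RatFunc C) (F0r C c) Z with edge (RatFunc C) (F1r C c) (F0r C c) Z w = v,
          (if w = e1 then (1 : ℤ) else if w = e2 then -1 else 0) = 0 := by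
        have h1 : ∀ w : Pt (RatFunc C) (F0r C c) Z,
            (if w = e1 then (1 : ℤ) else if w = e2 then -1 else 0) =
              (if w = e1 then 1 else 0) + (if w = e2 then -1 else 0) := by
          intro w
          by_cases h1 : w = e1
          · have : w ≠ e2 := h1 ▸ hne
            simp [h1, hne]
          · simp [h1]
        rw [Finset.sum_congr rfl fun w _ => h1 w, Finset.sum_add_distrib,
          Finset.sum_ite_eq', Finset.sum_ite_eq']
        simp [hee1, hee2]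
      rw [this]
      exact dvd_zero _)
  have hf1 := hf e1 hee1
  rw [if_pos rfl] at hf1
  -- the system
  obtain ⟨f', hsys, hf'1⟩ := exists_sys (C := C) hpC (f1 := (f : Z)) f.ne_zero (hS f hfS)
  refine ⟨f', hsys, fun θ' hθ' a ha => ?_⟩
  obtain ⟨R, hR⟩ := exists_resForm (p := p) hp1 c e1 hD
  have hlim' := hR f' θ' hsys.ne hθ'
  have hlim0 := hR _ θ0 (fun m => (map_ne_zero _).2 (hf0 m)) hθ0
  -- the residue of `θ0` is zero
  have hR0 : R θ0 = 0 := by
    refine tendsto_nhds_unique hlim0 ?_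
    rw [tendsto_zero_iff_norm_tendsto_zero]
    refine squeeze_zero (fun _ => norm_nonneg _) (fun m => ?_)
      (tendsto_pow_atTop_nhds_zero_of_lt_one (norm_nonneg (p : C)) hp1)
    apply norm_int_of_dvd
    have h1 : wd (Wr C c) e1 ((1 : F0r C c) ⊗ₜ[RatFunc C] algebraMap K Z (f0 m)) =
        wd (Wr C c) w1 (1 ⊗ₜ f0 m) := by
      have h2 : ((1 : F0r C c) ⊗ₜ[RatFunc C] algebraMap K Z (f0 m)) =
          tL (RatFunc C) (F0r C c) (IsScalarTower.toAlgHom (RatFunc C) K Z) (1 ⊗ₜ f0 m) := by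
        rw [tL_tmul]
        rfl
      rw [wd, wd, h2, he1, norm_liftE]
    rw [h1]
    exact hw1 m
  -- the residue of `θ'` is not
  have hwd : ∀ m, (p : ℤ) ∣ wd (Wr C c) e1 ((1 : F0r C c) ⊗ₜ[RatFunc C] f' (m + 1)) - 1 := by
    intro m
    obtain ⟨h, hh, hfm⟩ := IsSys.eq_mul_pow (C := C) hp.ne_zero hsys m
    have h1 : ((1 : F0r C c) ⊗ₜ[RatFunc C] f' (m + 1)) =
        ((1 : F0r C c) ⊗ₜ[RatFunc C] (f : Z)) * ((1 : F0r C c) ⊗ₜ[RatFunc C] h) ^ p := by
      rw [hfm, hf'1, Algebra.TensorProduct.tmul_pow, one_pow, Algebra.TensorProduct.tmul_mul_tmul,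
        one_mul]
    rw [h1, wd_mul (isWind_Wr c) e1 (P025H613.isUnit_one_tmul f.ne_zero) ((P025H613.isUnit_one_tmul hh).pow p),
      wd_pow (isWind_Wr c) e1 (P025H613.isUnit_one_tmul hh)]
    have h2 : wd (Wr C c) e1 ((1 : F0r C c) ⊗ₜ[RatFunc C] (f : Z)) +
        (p : ℤ) * wd (Wr C c) e1 ((1 : F0r C c) ⊗ₜ[RatFunc C] h) - 1 =
        (wd (Wr C c) e1 ((1 : F0r C c) ⊗ₜ[RatFunc C] (f : Z)) - 1) +
        (p : ℤ) * wd (Wr C c) e1 ((1 : F0r C c) ⊗ₜ[RatFunc C] h) := by ring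
    rw [h2]
    exact dvd_add hf1 (dvd_mul_right _ _)
  have hR' : ‖R θ' - 1‖ ≤ ‖(p : C)‖ := by
    have h1 : Tendsto (fun m => (wd (Wr C c) e1 ((1 : F0r C c) ⊗ₜ[RatFunc C] f' (m + 1)) : C) - 1)
        atTop (𝓝 (R θ' - 1)) :=
      ((tendsto_add_atTop_iff_nat 1).2 hlim').sub_const 1
    exact le_of_tendsto h1.norm (Filter.Eventually.of_forall fun m =>
      norm_int_sub_one hp1 (hwd m))
  have h0 : R θ' = 0 := by
    rw [ha, ← Algebra.smul_def, map_smul, hR0, smul_zero]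
  rw [h0, zero_sub, norm_neg, norm_one] at hR'
  exact absurd hR' (not_le.2 hp1)

end

end P025H16
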