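import Vale.Agent.P025.R2.H16.Core
import Vale.Agent.P025.R2.H613.MovesOf
import Vale.Agent.P025.R2.H210.Disc

/-!
# Windings at the edges of the pole discs (helper16, P025 G-RANK2)
-/

universe u

open TensorProduct P025H373 P025H544 P025H628 P025H613 P025H837 P025H587 Vale.Agent.P019P
open P025H816 P025H210

namespace P025H16

section

variable {F F2 F0 K : Type*} [Field F] [Field F2] [Field F0]
  [Algebra F F2] [Algebra F F0] [Algebra F2 F0] [IsScalarTower F F2 F0] [Field K] [Algebra F K]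
  [FiniteDimensional F K] [CharZero F]

/-- the winding at an edge which is the only one at its end point -/
theorem wd_single {W : F0 → ℤ} (hW : IsWind W) (w1 : Pt F F0 K)
    (h1 : ∀ w, edge F F2 F0 K w = edge F F2 F0 K w1 → w = w1) {g : K} (hg : g ≠ 0) :
    wd W w1 (1 ⊗ₜ g) = wd (fun t => W (algebraMap F2 F0 t)) (edge F F2 F0 K w1) (1 ⊗ₜ g) := by
  classical
  have : IsArtinianRing (F0 ⊗[F] K) := IsArtinianRing.of_finite F0 _
  let i1 : Fintype (Pt F F0 K) := Fintype.ofFinite _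
  have h2 := sum_edge (F := F) (F1 := F2) (F0 := F0) (K := K) hW (edge F F2 F0 K w1)
    (x := (1 : F2) ⊗ₜ[F] g) (P025H613.isUnit_one_tmul hg)
  have h3 : (Finset.univ.filter fun w : Pt F F0 K => edge F F2 F0 K w = edge F F2 F0 K w1) =
      {w1} := by
    ext w
    rw [Finset.mem_filter, Finset.mem_singleton]
    exact ⟨fun h => h1 w h.2, fun h => ⟨Finset.mem_univ _, by rw [h]⟩⟩
  rw [h3, Finset.sum_singleton, bc_tmul, map_one] at h2
  exact h2

end

theorem dvd_degAt {X : Type*} (q : X → Prop) {n : ℕ} (D : X →₀ ℤ) (h : ∀ x, (n : ℤ) ∣ D x) :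
    (n : ℤ) ∣ degAt q D := by
  have : D = (n : ℕ) • (D.mapRange (fun z : ℤ => z / (n : ℤ)) (Int.zero_ediv _) : X →₀ ℤ) := by
    ext P
    rw [Finsupp.smul_apply, Finsupp.mapRange_apply, nsmul_eq_mul]
    exact (Int.mul_ediv_cancel' (h P)).symm
  rw [this, map_nsmul, nsmul_eq_mul]
  exact dvd_mul_right _ _

/-- windings on the `D` side of a function with divisible divisor -/
theorem wd_dvd_of_sides {C F F1 F2 F0 K : Type*} [Field C] [Field F] [Field F1] [Field F2]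
    [Field F0] [Algebra F F1] [Algebra F F2] [Algebra F1 F0] [Algebra F2 F0]
    {W : F0 → ℤ} [Field K] [Algebra C K] [CFF C K] [Algebra F K]
    (s : Sides C F F1 F2 W K) (d : Pt F F2 K) {n : ℕ} {g : K} (hg : g ≠ 0)
    (h : ∀ P : Plk C K, (n : ℤ) ∣ ord P g) :
    (n : ℤ) ∣ wd (fun t => W (algebraMap F2 F0 t)) d (1 ⊗ₜ g) := by
  rw [s.sumD g hg d]
  exact (dvd_degAt _ _ fun P => by rw [dv_apply]; exact h P).neg_right

section

variable {C : Type u} [NontriviallyNormedField C] [IsUltrametricDist C] [CompleteSpace C]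
  [IsAlgClosed C] [CharZero C]
variable {K : Type u} [Field K] [Algebra C K] [Algebra (RatFunc C) K]
  [IsScalarTower C (RatFunc C) K] [FiniteDimensional (RatFunc C) K] [CFF C K]

theorem single_edge (Ch : Charts C K) (c : Cˣ) (hr : Ch.r0 ≤ ‖(c : C)‖) (P : Pole C K)
    (w : Pt (RatFunc C) (F0r C c) K)
    (h : edge (RatFunc C) (F2r C c) (F0r C c) K w =
      edge (RatFunc C) (F2r C c) (F0r C c) K (Ch.wP c hr P)) : w = Ch.wP c hr P := by
  obtain ⟨Q, rfl⟩ := (Ch.wP_bijective c hr).2 w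
  rw [Ch.edge_wP, Ch.edge_wP] at h
  rw [(Ch.dP_bijective c hr).1 h]

/-- **windings of a function with divisible divisor at the edge of a pole disc** -/
theorem wd_pole_dvd (Ch : Charts C K) (c : Cˣ) (hr : Ch.r0 ≤ ‖(c : C)‖) (P : Pole C K)
    (s : Sides C (RatFunc C) (F1r C c) (F2r C c) (Wr C c) K) {n : ℕ} {g : K} (hg : g ≠ 0)
    (h : ∀ P : Plk C K, (n : ℤ) ∣ ord P g) :
    (n : ℤ) ∣ wd (Wr C c) (Ch.wP c hr P) (1 ⊗ₜ g) := by
  have : CharZero (RatFunc C) :=
    charZero_of_injective_algebraMap (algebraMap C (RatFunc C)).injective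
  rw [wd_single (F2 := F2r C c) (isWind_Wr c) _ (single_edge Ch c hr P) hg]
  exact wd_dvd_of_sides s _ hg h

variable {Z : Type u} [Field Z] [Algebra C Z] [CFF C Z]
  [Algebra (RatFunc C) Z] [Algebra K Z] [IsScalarTower C (RatFunc C) Z]
  [IsScalarTower (RatFunc C) K Z] [FiniteDimensional (RatFunc C) Z]

/-- **Core of (8.1) on the pole discs.** -/
theorem rank2_discs {p : ℕ} (hp : p.Prime) (hp1 : ‖(p : C)‖ < 1) (Ch : Charts C K) (c : Cˣ)
    (hr : Ch.r0 ≤ ‖(c : C)‖)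
    -- Lemma G
    {v : Pt (RatFunc C) (F1r C c) Z} (hv : ResBij (RatFunc C) (F1r C c) K Z v)
    (hpath : ∀ e e' : Pt (RatFunc C) (F0r C c) Z, edge (RatFunc C) (F1r C c) (F0r C c) Z e = v →
      edge (RatFunc C) (F1r C c) (F0r C c) Z e' = v →
      Relation.ReflTransGen (Step (RatFunc C) (F1r C c) (F2r C c) (F0r C c) Z v)
        (edge (RatFunc C) (F2r C c) (F0r C c) Z e) (edge (RatFunc C) (F2r C c) (F0r C c) Z e'))
    -- two poles, a system on `K`
    {P1 P2 : Plk C K} (hP1 : ord P1 (TT C K) < 0) (hP2 : ord P2 (TT C K) < 0) (hP : P1 ≠ P2)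
    {f0 : ℕ → K} (hf0 : IsSys C p f0)
    (s : Sides C (RatFunc C) (F1r C c) (F2r C c) (Wr C c) K)
    -- moves
    (hM : Moves (RatFunc C) (F1r C c) (F2r C c) (Wr C c) p (divSub C Z p))
    {D : Derivation C Z Z} (hD : D ≠ 0) {θ0 : Z}
    (hθ0 : IsTheta p D (fun m => algebraMap K Z (f0 m)) θ0) :
    ∃ f' : ℕ → Z, IsSys C p f' ∧
      ∀ θ', IsTheta p D f' θ' → ∀ a : C, θ' ≠ algebraMap C Z a * θ0 := by
  refine rank2_core hp hp1 c (Ch.isField c hr) hv hpath (Ch.wP c hr ⟨P1, hP1⟩)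
    (Ch.wP c hr ⟨P2, hP2⟩) ?_ hf0.ne ?_ (S := divSub C Z p) (fun f hf => mem_divSub.1 hf) hM hD hθ0
  · intro h
    exact hP (congrArg Subtype.val ((Ch.wP_bijective c hr).1 h))
  · intro m
    refine wd_pole_dvd Ch c hr ⟨P1, hP1⟩ s (hf0.ne m) ?_
    exact (divBy_iff (pow_ne_zero _ hp.ne_zero) (hf0.ne m)).1 (hf0.div m)

end

end P025H16
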