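import Vale.Agent.P025.R2.H16.TrLog
import Vale.Agent.P025.R2.H373.Spec

/-!
# Residues of Hodge-Tate forms are limits of winding numbers (helper16, P025 G-RANK2)

`Z / C(t)` algebraic, `E` a finite extension of the Gauss field `F0 C` with a map `Z → E`,
`D` a derivation of `Z / C`, `u = D t ≠ 0`.
`tendsto_wind`: if `D (f m) / f m → θ` in `E`, then the winding numbers of the norms of the `f m` tend
to `res (Tr (θ / u))`.
-/

universe u

open P025H373 Filter Topology

namespace P025H16

section RatFuncDer

variable {k : Type*} [Field k]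

theorem der_ratFunc_eq_zero {M : Type*} [AddCommGroup M] [Module k M] [Module (RatFunc k) M]
    [IsScalarTower k (RatFunc k) M] (δ : Derivation k (RatFunc k) M) (h : δ RatFunc.X = 0)
    (a : RatFunc k) : δ a = 0 := by
  have hpoly : ∀ P : Polynomial k, δ (algebraMap (Polynomial k) (RatFunc k) P) = 0 := by
    intro P
    have h1 : algebraMap (Polynomial k) (RatFunc k) P = Polynomial.aeval RatFunc.X P := by
      rw [← RatFunc.algebraMap_X, Polynomial.aeval_algebraMap_apply, Polynomial.aeval_X_left_apply]
    rw [h1, δ.map_aeval, h, smul_zero]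
  have hQ : algebraMap (Polynomial k) (RatFunc k) a.denom ≠ 0 :=
    RatFunc.algebraMap_ne_zero a.denom_ne_zero
  have h2 : algebraMap (Polynomial k) (RatFunc k) a.denom * a =
      algebraMap (Polynomial k) (RatFunc k) a.num := by
    rw [mul_comm, ← eq_div_iff hQ, RatFunc.num_div_denom]
  have h3 := congrArg δ h2
  rw [δ.leibniz, hpoly, hpoly, smul_zero, add_zero] at h3
  exact (smul_eq_zero.mp h3).resolve_left hQ

end RatFuncDer

section Main

variable {C : Type u} [NontriviallyNormedField C] [IsUltrametricDist C] [CompleteSpace C]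
  [IsAlgClosed C] [CharZero C]

/-- `F0 C` as a nontrivially normed field. -/
@[reducible] noncomputable def nnF0 (C : Type u) [NontriviallyNormedField C] [IsUltrametricDist C] :
    NontriviallyNormedField (F0 C) :=
  { (inferInstance : NormedField (F0 C)) with
    non_trivial := by
      obtain ⟨x, hx⟩ := NontriviallyNormedField.non_trivial (α := C)
      exact ⟨algebraMap C (F0 C) x, by rwa [norm_algebraMap_C]⟩ }

/-- the spectral norm of `E / F0 C`. -/
noncomputable def sn (C : Type u) [NontriviallyNormedField C] [IsUltrametricDist C] (E : Type*)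
    [Field E] [Algebra (F0 C) E] (x : E) : ℝ :=
  @spectralNorm (F0 C) (nnF0 C).toNormedField E _ _ x

/-- the spectral norm of `E / F0 C` as an absolute value. -/
noncomputable def snAbs (C : Type u) [NontriviallyNormedField C] [IsUltrametricDist C]
    (E : Type*) [Field E] [Algebra (F0 C) E] [Algebra.IsAlgebraic (F0 C) E] :
    AbsoluteValue E ℝ :=
  letI := nnF0 C
  { toFun := fun x => sn C E x
    map_mul' := fun x y => spectralAlgNorm_mul (K := F0 C) (L := E) x y
    nonneg' := fun x => spectralNorm_nonneg (K := F0 C) (L := E) x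
    eq_zero' := fun x => map_eq_zero_iff_eq_zero (spectralMulAlgNorm (F0 C) E)
    add_le' := fun x y => map_add_le_add (spectralMulAlgNorm (F0 C) E) x y }

theorem snAbs_apply (E : Type*) [Field E] [Algebra (F0 C) E] [Algebra.IsAlgebraic (F0 C) E]
    (x : E) : snAbs C E x = sn C E x := rfl

theorem snAbs_na (E : Type*) [Field E] [Algebra (F0 C) E] [Algebra.IsAlgebraic (F0 C) E] :
    IsNonarchimedean (snAbs C E) :=
  letI := nnF0 C
  isNonarchimedean_spectralNorm (K := F0 C) (L := E)

theorem snAbs_algebraMap (E : Type*) [Field E] [Algebra (F0 C) E] [Algebra.IsAlgebraic (F0 C) E]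
    (a : F0 C) : snAbs C E (algebraMap (F0 C) E a) = ‖a‖ :=
  letI := nnF0 C
  spectralNorm_extends (K := F0 C) (L := E) a

variable {Z E : Type*} [Field Z] [Field E] [Algebra (RatFunc C) Z] [Algebra (F0 C) E]
  [Algebra Z E]

/-- `res (Tr (x / u))`. -/
noncomputable def rw' (C : Type u) [NontriviallyNormedField C] [IsUltrametricDist C]
    [CompleteSpace C] [IsAlgClosed C] (E : Type*) [Field E] [Algebra (F0 C) E] (u x : E) : C :=
  res C (Algebra.trace (F0 C) E (x / u))

/-- The derivation `D` of `Z` becomes `u ⬝ d/dt` in `E`. -/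
theorem der_eq [Algebra.IsAlgebraic (RatFunc C) Z] [Algebra C Z] [IsScalarTower C (RatFunc C) Z]
    (hc : ∀ a : RatFunc C, algebraMap Z E (algebraMap (RatFunc C) Z a) =
      algebraMap (F0 C) E (algebraMap (RatFunc C) (F0 C) a))
    (D : Derivation C Z Z) (dE : Derivation ℤ E E)
    (hE : ∀ a : F0 C, dE (algebraMap (F0 C) E a) = algebraMap (F0 C) E (der C a))
    (z : Z) :
    algebraMap Z E (D z) =
      algebraMap Z E (D (algebraMap (RatFunc C) Z RatFunc.X)) * dE (algebraMap Z E z) := by
  set u := D (algebraMap (RatFunc C) Z RatFunc.X) with hu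
  -- first on rational functions
  have h1 : ∀ a : RatFunc C, algebraMap Z E (D (algebraMap (RatFunc C) Z a)) =
      algebraMap Z E u * algebraMap (F0 C) E (der C (algebraMap (RatFunc C) (F0 C) a)) := by
    let : Algebra (RatFunc C) E := ((algebraMap Z E).comp (algebraMap (RatFunc C) Z)).toAlgebra
    let : Algebra C E := ((algebraMap (RatFunc C) E).comp (algebraMap C (RatFunc C))).toAlgebra
    have : IsScalarTower C (RatFunc C) E := IsScalarTower.of_algebraMap_eq fun _ => rfl
    have hF : ∀ a : RatFunc C, algebraMap (RatFunc C) E a =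
        algebraMap Z E (algebraMap (RatFunc C) Z a) := fun _ => rfl
    have hCE : ∀ a : C, algebraMap C E a = algebraMap Z E (algebraMap C Z a) := by
      intro a
      rw [IsScalarTower.algebraMap_apply C (RatFunc C) Z]
      rfl
    have hCE' : ∀ a : C, algebraMap C E a = algebraMap (F0 C) E (algebraMap C (F0 C) a) := by
      intro a
      rw [IsScalarTower.algebraMap_apply C (RatFunc C) (F0 C), ← hc]
      rfl
    let δ : Derivation C (RatFunc C) E := Derivation.mk'
      { toFun := fun a => algebraMap Z E (D (algebraMap (RatFunc C) Z a)) -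
          algebraMap Z E u * algebraMap (F0 C) E (der C (algebraMap (RatFunc C) (F0 C) a))
        map_add' := fun x y => by simp only [map_add]; ring
        map_smul' := fun c x => by
          have e1 : algebraMap (RatFunc C) Z (c • x) = c • algebraMap (RatFunc C) Z x := by
            rw [Algebra.smul_def, Algebra.smul_def, map_mul,
              ← IsScalarTower.algebraMap_apply C (RatFunc C) Z]
          have e2 : algebraMap (RatFunc C) (F0 C) (c • x) =
              c • algebraMap (RatFunc C) (F0 C) x := by
            rw [Algebra.smul_def, Algebra.smul_def, map_mul,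
              ← IsScalarTower.algebraMap_apply C (RatFunc C) (F0 C)]
          rw [e1, e2, D.map_smul, (der C).map_smul, RingHom.id_apply]
          simp only [Algebra.smul_def, map_mul]
          rw [← hCE, ← hCE']
          ring }
      (fun x y => by
        simp only [LinearMap.coe_mk, AddHom.coe_mk, Derivation.leibniz, map_add,
          map_mul, Algebra.smul_def, Algebra.algebraMap_self, RingHom.id_apply]
        rw [hF, hF, ← hc x, ← hc y]
        ring)
    intro a
    have h2 := der_ratFunc_eq_zero δ (by
      change algebraMap Z E (D (algebraMap (RatFunc C) Z RatFunc.X)) -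
          algebraMap Z E u * algebraMap (F0 C) E
            (der C (algebraMap (RatFunc C) (F0 C) RatFunc.X)) = 0
      have : algebraMap (RatFunc C) (F0 C) RatFunc.X = tt C := rfl
      rw [this, der_tt, map_one, mul_one, ← hu, sub_self]) a
    exact sub_eq_zero.mp h2
  haveI : CharZero (RatFunc C) := charZero_of_injective_algebraMap (algebraMap C (RatFunc C)).injective
  have h3 := der_agree (R := ℤ) (F := RatFunc C) (Z := Z) (E := E) (D.restrictScalars ℤ)
    (algebraMap Z E u • dE) (by
      intro a
      rw [Derivation.restrictScalars_apply, h1, Derivation.smul_apply, smul_eq_mul, hc, hE]) z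
  rw [Derivation.restrictScalars_apply, Derivation.smul_apply, smul_eq_mul] at h3
  exact h3

theorem charZero_F0 : CharZero (F0 C) :=
  charZero_of_injective_algebraMap (algebraMap C (F0 C)).injective

/-- `res (Tr (D f / f / u))` is the winding number of the norm. -/
theorem rw_logDeriv [Algebra.IsAlgebraic (RatFunc C) Z] [Algebra C Z]
    [IsScalarTower C (RatFunc C) Z] [FiniteDimensional (F0 C) E]
    (hc : ∀ a : RatFunc C, algebraMap Z E (algebraMap (RatFunc C) Z a) =
      algebraMap (F0 C) E (algebraMap (RatFunc C) (F0 C) a))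
    (D : Derivation C Z Z) (hu : D (algebraMap (RatFunc C) Z RatFunc.X) ≠ 0) {f : Z}
    (hf : f ≠ 0) :
    rw' C E (algebraMap Z E (D (algebraMap (RatFunc C) Z RatFunc.X)))
      (algebraMap Z E (D f / f)) = (wind C (Algebra.norm (F0 C) (algebraMap Z E f)) : C) := by
  haveI := charZero_F0 (C := C)
  letI dF : Differential (F0 C) := ⟨(der C).restrictScalars ℤ⟩
  letI dE : Differential E := Differential.differentialFiniteDimensional (F0 C) E
  haveI hDA : DifferentialAlgebra (F0 C) E := Differential.differentialAlgebraFiniteDimensional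
  have hE : ∀ a : F0 C, dE.deriv (algebraMap (F0 C) E a) = algebraMap (F0 C) E (der C a) :=
    fun a => hDA.deriv_algebraMap a
  have h1 := der_eq hc D dE.deriv hE f
  have hu' : algebraMap Z E (D (algebraMap (RatFunc C) Z RatFunc.X)) ≠ 0 := by simpa using hu
  have hf' : algebraMap Z E f ≠ 0 := by simpa using hf
  have h2 : algebraMap Z E (D f / f) / algebraMap Z E (D (algebraMap (RatFunc C) Z RatFunc.X)) =
      dE.deriv (algebraMap Z E f) / algebraMap Z E f := by
    rw [map_div₀, h1]
    field_simp
  have h3 := trace_logDeriv (R := ℤ) ((der C).restrictScalars ℤ) dE.deriv (fun a => hE a) hf'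
  rw [rw', h2, h3, Derivation.restrictScalars_apply, res_logDer]
  rw [Algebra.norm_ne_zero_iff]
  exact hf'

/-- winding numbers tend to the residue of the limit form -/
theorem tendsto_wind [Algebra.IsAlgebraic (RatFunc C) Z] [Algebra C Z]
    [IsScalarTower C (RatFunc C) Z] [FiniteDimensional (F0 C) E]
    (hc : ∀ a : RatFunc C, algebraMap Z E (algebraMap (RatFunc C) Z a) =
      algebraMap (F0 C) E (algebraMap (RatFunc C) (F0 C) a))
    (D : Derivation C Z Z) (hu : D (algebraMap (RatFunc C) Z RatFunc.X) ≠ 0) {f : ℕ → Z}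
    (hf : ∀ m, f m ≠ 0) (θ : Z) {A r : ℝ} (hr0 : 0 ≤ r) (hr : r < 1)
    (hA : ∀ m, snAbs C E (algebraMap Z E (D (f m) / f m - θ)) ≤ A * r ^ m) :
    Tendsto (fun m => (wind C (Algebra.norm (F0 C) (algebraMap Z E (f m))) : C)) atTop
      (𝓝 (rw' C E (algebraMap Z E (D (algebraMap (RatFunc C) Z RatFunc.X)))
        (algebraMap Z E θ))) := by
  letI := nnF0 C
  obtain ⟨B, hB, hB'⟩ := exists_bound (K := F0 C) (L := E) (Algebra.trace (F0 C) E)
  set U := algebraMap Z E (D (algebraMap (RatFunc C) Z RatFunc.X)) with hU
  have hU0 : U ≠ 0 := by simpa [hU] using hu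
  have key : ∀ m, ‖(wind C (Algebra.norm (F0 C) (algebraMap Z E (f m))) : C) -
      rw' C E U (algebraMap Z E θ)‖ ≤ (B * A / snAbs C E U) * r ^ m := by
    intro m
    rw [← rw_logDeriv hc D hu (hf m), ← hU, rw', rw', ← map_sub, ← map_sub, ← sub_div, ← map_sub]
    have hpos : 0 < snAbs C E U := (snAbs C E).pos hU0
    calc ‖res C (Algebra.trace (F0 C) E (algebraMap Z E (D (f m) / f m - θ) / U))‖
        ≤ ‖Algebra.trace (F0 C) E (algebraMap Z E (D (f m) / f m - θ) / U)‖ := norm_res_le _
      _ ≤ B * snAbs C E (algebraMap Z E (D (f m) / f m - θ) / U) := hB' _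
      _ = B * (snAbs C E (algebraMap Z E (D (f m) / f m - θ)) / snAbs C E U) := by
          rw [map_div₀]
      _ ≤ B * (A * r ^ m / snAbs C E U) := by gcongr; exact hA m
      _ = (B * A / snAbs C E U) * r ^ m := by ring
  rw [tendsto_iff_norm_sub_tendsto_zero]
  refine squeeze_zero (fun _ => norm_nonneg _) key ?_
  simpa using (tendsto_pow_atTop_nhds_zero_of_lt_one hr0 hr).const_mul (B * A / snAbs C E U)

end Main

end P025H16
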