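import Mathlib

/-!
# Traces, norms and derivations in finite extensions (helper16, for P025 G-RANK2)

* `der_agree`: a ring map of fields intertwines two derivations as soon as it does on a subfield over
  which the source is algebraic (characteristic zero);
* `trace_logDeriv`: `Tr (D x / x) = d (N x) / N x`;
* `exists_bound`: linear forms are bounded for the spectral norm.
-/

namespace P025H16

theorem der_eq_zero {F Z E : Type*} [Field F] [CharZero F] [Field Z] [Field E] [Algebra F Z]
    [Algebra.IsAlgebraic F Z] [Algebra Z E] [Algebra F E] [IsScalarTower F Z E]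
    (δ : Derivation F Z E) (z : Z) : δ z = 0 := by
  have hi : IsIntegral F z := (Algebra.IsAlgebraic.isAlgebraic z).isIntegral
  have h0 : δ (Polynomial.aeval z (minpoly F z)) = 0 := by rw [minpoly.aeval]; simp
  have h1 := δ.map_aeval (minpoly F z) z
  rw [h0] at h1
  have h2 : Polynomial.aeval z (minpoly F z).derivative ≠ 0 :=
    (minpoly.irreducible hi).separable.aeval_derivative_ne_zero (minpoly.aeval F z)
  rcases smul_eq_zero.mp h1.symm with h | h
  · exact absurd h h2
  · exact h

/-- A map of fields `Z → E` intertwines derivations if it does so on a subfield `F` over which `Z` is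
algebraic. -/
theorem der_agree {R F Z E : Type*} [CommRing R] [Field F] [CharZero F] [Field Z] [Field E]
    [Algebra F Z] [Algebra.IsAlgebraic F Z] [Algebra Z E] [Algebra R Z] [Algebra R E]
    (DZ : Derivation R Z Z) (DE : Derivation R E E)
    (h : ∀ a : F, algebraMap Z E (DZ (algebraMap F Z a)) =
      DE (algebraMap Z E (algebraMap F Z a))) (z : Z) :
    algebraMap Z E (DZ z) = DE (algebraMap Z E z) := by
  let : Algebra F E := ((algebraMap Z E).comp (algebraMap F Z)).toAlgebra
  have : IsScalarTower F Z E := IsScalarTower.of_algebraMap_eq fun _ => rfl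
  have hF : ∀ a : F, algebraMap F E a = algebraMap Z E (algebraMap F Z a) := fun _ => rfl
  let δ : Derivation F Z E := Derivation.mk'
    { toFun := fun z => algebraMap Z E (DZ z) - DE (algebraMap Z E z)
      map_add' := fun x y => by simp only [map_add]; ring
      map_smul' := fun a x => by
        simp only [RingHom.id_apply, Algebra.smul_def, map_mul, Derivation.leibniz, map_add,
          h, hF, Algebra.algebraMap_self]
        ring }
    (fun x y => by
      simp only [LinearMap.coe_mk, AddHom.coe_mk, Derivation.leibniz, map_add,
        map_mul, Algebra.smul_def, Algebra.algebraMap_self, RingHom.id_apply]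
      ring)
  have h1 := der_eq_zero δ z
  have h2 : δ z = algebraMap Z E (DZ z) - DE (algebraMap Z E z) := rfl
  rw [h2] at h1
  exact sub_eq_zero.mp h1

open Differential in
/-- `Tr (D x / x) = d (N x) / N x`. -/
theorem trace_logDeriv {R F E : Type*} [CommRing R] [Field F] [CharZero F] [Field E] [Algebra F E]
    [FiniteDimensional F E] [Algebra R F] [Algebra R E] (d : Derivation R F F)
    (D : Derivation R E E) (h : ∀ a, D (algebraMap F E a) = algebraMap F E (d a)) {x : E}
    (hx : x ≠ 0) :
    Algebra.trace F E (D x / x) = d (Algebra.norm F x) / Algebra.norm F x := by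
  have : CharZero E := charZero_of_injective_algebraMap (algebraMap F E).injective
  let dF : Differential F := ⟨d.restrictScalars ℤ⟩
  let dE : Differential E := ⟨D.restrictScalars ℤ⟩
  have : DifferentialAlgebra F E := ⟨fun a => h a⟩
  let N := IntermediateField.normalClosure F E (AlgebraicClosure E)
  have hfin : FiniteDimensional E N := FiniteDimensional.right F E N
  let dN : Differential N := differentialFiniteDimensional E N
  have hEN : DifferentialAlgebra E N := differentialAlgebraFiniteDimensional
  have : DifferentialAlgebra F N := ⟨fun a => by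
    rw [IsScalarTower.algebraMap_apply F E N, deriv_algebraMap, deriv_algebraMap,
      ← IsScalarTower.algebraMap_apply F E N]⟩
  have : IsGalois F N := ⟨⟩
  have hm : (Module.finrank E N : F) ≠ 0 := by
    have : Module.finrank E N ≠ 0 := Module.finrank_pos.ne'
    exact_mod_cast this
  have hxN : algebraMap E N x ≠ 0 := by simpa using hx
  -- trace side
  have h1 : algebraMap F N (Algebra.trace F N (algebraMap E N (D x / x))) =
      ∑ σ : Gal(N/F), σ (algebraMap E N (D x / x)) := trace_eq_sum_automorphisms _
  have h2 : algebraMap F N (Algebra.norm F (algebraMap E N x)) =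
      ∏ σ : Gal(N/F), σ (algebraMap E N x) := Algebra.norm_eq_prod_automorphisms _ _
  have h3 : logDeriv (∏ σ : Gal(N/F), σ (algebraMap E N x)) =
      ∑ σ : Gal(N/F), logDeriv (σ (algebraMap E N x)) :=
    logDeriv_prod _ _ _ fun σ _ => by simpa using hxN
  have h4 : ∀ σ : Gal(N/F), logDeriv (σ (algebraMap E N x)) = σ (algebraMap E N (D x / x)) := by
    intro σ
    have e1 : (algebraMap E N x)′ = algebraMap E N (D x) := deriv_algebraMap (A := E) (B := N) x
    rw [Differential.logDeriv, ← algEquiv_deriv', e1, map_div₀, map_div₀]
  have h5 : logDeriv (algebraMap F N (Algebra.norm F (algebraMap E N x))) =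
      algebraMap F N (Algebra.trace F N (algebraMap E N (D x / x))) := by
    rw [h1, h2, h3]
    exact Finset.sum_congr rfl fun σ _ => h4 σ
  rw [logDeriv_algebraMap] at h5
  have h6 := (algebraMap F N).injective h5
  have h7 : Algebra.norm F (algebraMap E N x) = (Algebra.norm F x) ^ Module.finrank E N := by
    rw [← Algebra.norm_norm (R := F) (S := E), Algebra.norm_algebraMap, map_pow]
  have h8 : Algebra.trace F N (algebraMap E N (D x / x)) =
      (Module.finrank E N : F) * Algebra.trace F E (D x / x) := by
    rw [← Algebra.trace_trace (S := E), Algebra.trace_algebraMap, map_nsmul, nsmul_eq_mul]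
  rw [h7, h8, Differential.logDeriv_pow] at h6
  have h9 := mul_left_cancel₀ hm h6
  rw [← h9]
  rfl

/-- linear forms on a finite extension of a complete field are bounded for the spectral norm -/
theorem exists_bound {K L : Type*} [NontriviallyNormedField K] [CompleteSpace K]
    [IsUltrametricDist K] [Field L] [Algebra K L] [FiniteDimensional K L] (φ : L →ₗ[K] K) :
    ∃ B : ℝ, 0 < B ∧ ∀ x, ‖φ x‖ ≤ B * spectralNorm K L x := by
  let := spectralNorm.normedField K L
  let := spectralNorm.normedSpace K L
  let ψ : L →L[K] K := ⟨φ, φ.continuous_of_finiteDimensional⟩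
  obtain ⟨B, hB, h⟩ := ψ.isBoundedLinearMap.bound
  exact ⟨B, hB, h⟩

end P025H16
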