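import Vale.Agent.P025.R2.H16.AppG
import Vale.Agent.P025.R2.H210.Disc
import Vale.Agent.P025.R2.H552.F2lau

/-!
# Uniqueness of the component of a pole (helper16, P025)

`OnD C c P d` determines `d`: it is the point `dP` of the charts.
-/

universe u

open TensorProduct P025H373 P025H628 P025H544 P025H492 P025H837 P025H450 Vale.Agent.P019P
open P025H816 P025H210 P025H552 HahnSeries

namespace P025H16

section laurent

variable {k : Type u} [Field k]

/-- integral Laurent series -/
def Reg (z : LaurentSeries k) : Prop := ∃ g : PowerSeries k, z = ofPowerSeries ℤ k g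

theorem Reg.mul {z w : LaurentSeries k} (hz : Reg z) (hw : Reg w) : Reg (z * w) := by
  obtain ⟨g, rfl⟩ := hz
  obtain ⟨h, rfl⟩ := hw
  exact ⟨g * h, (map_mul _ _ _).symm⟩

theorem Reg.pow {z : LaurentSeries k} (hz : Reg z) (n : ℕ) : Reg (z ^ n) := by
  obtain ⟨g, rfl⟩ := hz
  exact ⟨g ^ n, (map_pow _ _ _).symm⟩

theorem order_nonneg_of_reg {z : LaurentSeries k} (h : Reg z) : 0 ≤ z.order := by
  obtain ⟨g, rfl⟩ := h
  by_contra hlt
  push Not at hlt
  have hz : ofPowerSeries ℤ k g ≠ 0 := by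
    intro h0
    rw [h0, order_zero] at hlt
    exact lt_irrefl _ hlt
  have h1 : (ofPowerSeries ℤ k g).coeff (ofPowerSeries ℤ k g).order ≠ 0 :=
    coeff_order_eq_zero.not.2 hz
  apply h1
  rw [PowerSeries.coeff_coe, if_pos hlt]

theorem reg_of_order {z : LaurentSeries k} (h : 0 ≤ z.order) : Reg z := by
  obtain ⟨n, hn⟩ := Int.eq_ofNat_of_zero_le h
  exact ⟨PowerSeries.X ^ n * z.powerSeriesPart,
    (LaurentSeries.X_order_mul_powerSeriesPart hn.symm).symm⟩

theorem order_add_left {z w : LaurentSeries k} (hz : z ≠ 0) (hw : w ≠ 0 → z.order < w.order) :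
    (z + w).order = z.order := by
  by_cases hw0 : w = 0
  · rw [hw0, add_zero]
  have h1 : z.orderTop < w.orderTop := by
    rw [← order_eq_orderTop_of_ne_zero hz, ← order_eq_orderTop_of_ne_zero hw0]
    exact_mod_cast hw hw0
  have h2 := orderTop_add_eq_left h1
  have h3 : z + w ≠ 0 := by
    intro h
    rw [h, orderTop_zero] at h2
    exact hz (orderTop_eq_top.1 h2.symm)
  rw [← order_eq_orderTop_of_ne_zero hz, ← order_eq_orderTop_of_ne_zero h3] at h2
  exact_mod_cast h2

theorem ne_zero_of_order {z : LaurentSeries k} (h : z.order ≠ 0) : z ≠ 0 := by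
  rintro rfl
  exact h order_zero

theorem order_algebraMap (c : k) : (algebraMap k (LaurentSeries k) c).order = 0 := by
  rw [LaurentSeries.algebraMap_apply]
  exact order_C

end laurent

section A2

variable {C : Type u} [NontriviallyNormedField C] [IsUltrametricDist C] [CompleteSpace C]
  [IsAlgClosed C] [CharZero C]

/-- roots in `A2` -/
theorem exists_root_A2 (a : A2 C) {n : ℕ} (hn : n ≠ 0) :
    ∃ (l : C) (y : A2 C), l ≠ 0 ∧ y ^ n = 1 + algebraMap C (A2 C) l * a := by
  have hnC : (n : C) ≠ 0 := by exact_mod_cast hn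
  have h0 : 0 < ‖(n : C)‖ := norm_pos_iff.2 hnC
  obtain ⟨l, hl0, hl⟩ := NormedField.exists_norm_lt C
    (r := ‖(n : C)‖ ^ 2 / (‖(a : F0 C)‖ + 1)) (by positivity)
  have hx : (1 + algebraMap C (F0 C) l * (a : F0 C)) ∈ (A2 C).toSubring :=
    (1 + algebraMap C (A2 C) l * a : A2 C).2
  obtain ⟨y, hy, hyn, -⟩ := exists_pow_eq (C := C) (A := F0 C) (A2 C).toSubring isClosed_A2
    (fun c => (A2 C).algebraMap_mem c) hnC hx (by
      rw [add_sub_cancel_left, norm_mul, norm_algebraMap_C]
      calc ‖l‖ * ‖(a : F0 C)‖ ≤ ‖l‖ * (‖(a : F0 C)‖ + 1) := by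
            gcongr
            linarith
        _ < _ := (lt_div_iff₀ (by positivity)).1 hl)
  exact ⟨l, ⟨y, hy⟩, norm_pos_iff.1 hl0, Subtype.ext hyn⟩

/-- a homomorphism to Laurent series is integral on `A2`. -/
theorem reg_A2 (g : A2 C →+* LaurentSeries C)
    (hg : ∀ c, g (algebraMap C (A2 C) c) = algebraMap C (LaurentSeries C) c) (a : A2 C) :
    Reg (g a) := by
  apply reg_of_order
  by_contra hlt
  push Not at hlt
  obtain ⟨m, hm⟩ := Int.exists_eq_neg_ofNat hlt.le
  have hm0 : 0 < m := by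
    rw [hm] at hlt
    omega
  obtain ⟨l, y, hl, hy⟩ := exists_root_A2 a (n := m + 1) (by omega)
  have h1 := congrArg g hy
  rw [map_pow, map_add, map_one, map_mul, hg] at h1
  have hC : algebraMap C (LaurentSeries C) l = HahnSeries.C l := LaurentSeries.algebraMap_apply _ _
  have hga : g a ≠ 0 := ne_zero_of_order hlt.ne
  have hl' : algebraMap C (LaurentSeries C) l ≠ 0 := by
    rw [hC]
    simpa using hl
  have h2 : (algebraMap C (LaurentSeries C) l * g a).order = (g a).order := by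
    rw [HahnSeries.order_mul hl' hga, order_algebraMap, zero_add]
  have h3 := congrArg HahnSeries.order h1
  rw [add_comm (1 : LaurentSeries C), order_add_left (mul_ne_zero hl' hga)
    (fun _ => by rw [h2, order_one]; exact hlt), h2, hm, HahnSeries.order_pow, nsmul_eq_mul] at h3
  have h4 : ((m + 1 : ℕ) : ℤ) ∣ (m : ℤ) := by
    rw [← Int.dvd_neg, ← h3]
    exact dvd_mul_right _ _
  have h5 := Nat.le_of_dvd hm0 (by exact_mod_cast h4)
  omega

/-- factoring out the zero at infinity -/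
theorem exists_s_pow {a : A2 C} (ha : a ≠ 0) :
    ∃ (n : ℕ) (b : A2 C), evInf C b ≠ 0 ∧ a = sA ^ n * b := by
  have h1 : tay2 a ≠ 0 := tay2_ne_zero ha
  obtain ⟨n, hn⟩ : ∃ n, PowerSeries.coeff n (tay2 a) ≠ 0 := by
    by_contra h
    push Not at h
    exact h1 (PowerSeries.ext fun n => by rw [h n, map_zero])
  clear h1 ha
  induction n generalizing a with
  | zero =>
    refine ⟨0, a, ?_, by rw [pow_zero, one_mul]⟩
    rwa [← (taylorData (C := C)).coeff_zero_tay a]
  | succ n ih =>
    by_cases h0 : evInf C a = 0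
    · have h2 := (taylorData (C := C)).D_spec a
      rw [h0, map_zero, zero_add] at h2
      have h3 : PowerSeries.coeff n (tay2 ((taylorData (C := C)).D a)) ≠ 0 := by
        intro h4
        exact hn (((taylorData (C := C)).coeff_succ_tay a n).trans h4)
      obtain ⟨m, b, hb, hm⟩ := ih h3
      refine ⟨m + 1, b, hb, ?_⟩
      rw [h2, hm, pow_succ]
      ring
    · exact ⟨0, a, h0, by rw [pow_zero, one_mul]⟩

variable {g : F2 C →+* LaurentSeries C}

theorem order_unit (hg : ∀ c, g (algebraMap C (F2 C) c) = algebraMap C (LaurentSeries C) c)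
    (hs : 0 < (g (iA2 (sA (C := C)))).order) {b : A2 C} (hb : evInf C b ≠ 0) :
    (g (iA2 b)).order = 0 := by
  have h1 := (taylorData (C := C)).D_spec b
  set d := (taylorData (C := C)).D b
  have h2 : g (iA2 b) = algebraMap C (LaurentSeries C) (evInf C b) +
      g (iA2 (sA (C := C))) * g (iA2 d) := by
    conv_lhs => rw [h1]
    rw [map_add, map_mul, map_add, map_mul, AlgHom.commutes, hg]
  have hc0 : algebraMap C (LaurentSeries C) (evInf C b) ≠ 0 := by
    rw [Ne, map_eq_zero_iff _ (algebraMap C (LaurentSeries C)).injective]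
    exact hb
  rw [h2, order_add_left hc0, order_algebraMap]
  intro h3
  have h4 : 0 ≤ (g (iA2 d)).order :=
    order_nonneg_of_reg (reg_A2 (g.comp (iA2 (C := C)).toRingHom) (fun c => by
      change g (iA2 (algebraMap C (A2 C) c)) = _
      rw [AlgHom.commutes, hg]) d)
  rw [order_algebraMap, HahnSeries.order_mul (left_ne_zero_of_mul h3) (right_ne_zero_of_mul h3)]
  omega

/-- orders under a homomorphism, for a fixed orientation at infinity -/
theorem order_hom (hg : ∀ c, g (algebraMap C (F2 C) c) = algebraMap C (LaurentSeries C) c)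
    (hs : 0 < (g (iA2 (sA (C := C)))).order) {h : F2 C} (hh : h ≠ 0) :
    (g h).order = (lamInf h).order * (g (iA2 (sA (C := C)))).order := by
  obtain ⟨a, b, hb, rfl⟩ := exists_div_A2 h
  have ha : a ≠ 0 := by
    rintro rfl
    rw [map_zero, zero_div] at hh
    exact hh rfl
  obtain ⟨i, a', ha', rfl⟩ := exists_s_pow ha
  obtain ⟨j, b', hb', rfl⟩ := exists_s_pow hb
  have hs1 : (lamInf (iA2 (sA (C := C)))).order = 1 := by
    have h1 : lamInf (iA2 (sA (C := C))) = HahnSeries.single 1 1 := by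
      rw [← s_eq]
      have h2 := lamInf_t2 (C := C)
      rw [t2] at h2
      rw [map_inv₀, h2]
      symm
      apply eq_inv_of_mul_eq_one_left
      rw [HahnSeries.single_mul_single, one_mul]
      rfl
    rw [h1, HahnSeries.order_single one_ne_zero]
  have key : ∀ (f : F2 C →+* LaurentSeries C)
      (_ : ∀ c, f (algebraMap C (F2 C) c) = algebraMap C (LaurentSeries C) c)
      (_ : 0 < (f (iA2 (sA (C := C)))).order),
      (f (iA2 (sA ^ i * a') / iA2 (sA ^ j * b'))).order =
        ((i : ℤ) - j) * (f (iA2 (sA (C := C)))).order := by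
    intro f hf hfs
    have hne : ∀ {x : A2 C}, x ≠ 0 → f (iA2 x) ≠ 0 := fun hx =>
      (map_ne_zero_iff _ f.injective).2 ((map_ne_zero_iff _ iA2_inj).2 hx)
    have hs0 : (sA : A2 C) ≠ 0 := (taylorData (C := C)).ne_zero
    have ha0 : a' ≠ 0 := by
      rintro rfl
      exact ha' (map_zero _)
    have hb0 : b' ≠ 0 := by
      rintro rfl
      exact hb' (map_zero _)
    have h1 : f (iA2 (sA ^ i * a') / iA2 (sA ^ j * b')) * (f (iA2 sA) ^ j * f (iA2 b')) =
        f (iA2 sA) ^ i * f (iA2 a') := by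
      rw [map_div₀, map_mul, map_mul, map_mul, map_mul, map_pow, map_pow, map_pow, map_pow,
        div_mul_cancel₀]
      exact mul_ne_zero (pow_ne_zero _ (hne hs0)) (hne hb0)
    have h2 := congrArg HahnSeries.order h1
    rw [HahnSeries.order_mul, HahnSeries.order_mul, HahnSeries.order_mul, HahnSeries.order_pow,
      HahnSeries.order_pow, order_unit hf hfs hb', order_unit hf hfs ha', nsmul_eq_mul,
      nsmul_eq_mul] at h2
    · linarith
    · exact pow_ne_zero _ (hne hs0)
    · exact hne ha0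
    · exact pow_ne_zero _ (hne hs0)
    · exact hne hb0
    · rw [map_ne_zero_iff _ f.injective]
      exact div_ne_zero ((map_ne_zero_iff _ iA2_inj).2 ha) ((map_ne_zero_iff _ iA2_inj).2 hb)
    · exact mul_ne_zero (pow_ne_zero _ (hne hs0)) (hne hb0)
  rw [key g hg hs]
  have h3 := key (lamInf (C := C) : F2 C →+* LaurentSeries C) (fun c => lamInf.commutes c)
    (by change 0 < (lamInf (iA2 (sA (C := C)))).order; rw [hs1]; exact one_pos)
  have h4 : (lamInf (iA2 (sA ^ i * a') / iA2 (sA ^ j * b'))).order = ((i : ℤ) - j) := by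
    have h5 : ((lamInf (C := C) : F2 C →+* LaurentSeries C) (iA2 (sA (C := C)))).order = 1 := hs1
    rw [h5, mul_one] at h3
    exact h3
  rw [h4]

end A2

section main

variable {C : Type u} [NontriviallyNormedField C] [IsUltrametricDist C] [CompleteSpace C]
  [IsAlgClosed C] [CharZero C]
variable {K : Type u} [Field K] [Algebra C K] [Algebra (RatFunc C) K]
  [IsScalarTower C (RatFunc C) K] [FiniteDimensional (RatFunc C) K] [CFF C K]

omit [CharZero C] in
theorem exists_factor {R S T : Type*} [CommRing R] [CommRing S] [CommRing T] (f : R →+* S)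
    (hf : Function.Surjective f) (φ : R →+* T) (h : RingHom.ker f ≤ RingHom.ker φ) :
    ∃ g : S →+* T, ∀ z, g (f z) = φ z :=
  ⟨f.liftOfSurjective hf ⟨φ, h⟩, fun z => f.liftOfRightInverse_comp_apply _ _ ⟨φ, h⟩ z⟩

omit [CharZero C] in
theorem one_tmul_algebraMap (c : Cˣ) (a : C) : (1 : F2r C c) ⊗ₜ[RatFunc C] algebraMap C K a =
    algebraMap C (F2r C c ⊗[RatFunc C] K) a := by
  rw [Algebra.TensorProduct.algebraMap_apply, IsScalarTower.algebraMap_apply C (RatFunc C) K,
    ← Algebra.TensorProduct.tmul_one_eq_one_tmul,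
    ← IsScalarTower.algebraMap_apply C (RatFunc C) (F2r C c)]

omit [CompleteSpace C] [CharZero C] in
theorem exists_root_unit (c : Cˣ) {n : ℕ} (hn : 0 < n) : ∃ γ : Cˣ, γ ^ n = c := by
  obtain ⟨x, hx⟩ := IsAlgClosed.exists_pow_nat_eq (c : C) hn
  have hx0 : x ≠ 0 := by
    rintro rfl
    rw [zero_pow hn.ne'] at hx
    exact c.ne_zero hx.symm
  exact ⟨Units.mk0 x hx0, Units.ext (by rw [Units.val_pow_eq_pow_val]; exact hx)⟩

/-- the component of a pole is the point `dP` of the charts -/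
theorem onD_unique (Ch : Charts C K) (c : Cˣ) (hr : Ch.r0 ≤ ‖(c : C)‖) (P : Pole C K)
    {d : Pt (RatFunc C) (F2r C c) K} (h : OnD C c P.1 d) : d = Ch.dP c hr P := by
  obtain ⟨Q, rfl⟩ := (Ch.dP_bijective c hr).2 d
  obtain ⟨φ, hker, hord⟩ := h
  obtain ⟨γ, hγc⟩ := exists_root_unit c Q.N_pos
  have hker2 := Ch.ker_ch2 Q γ c hγc hr
  have hle : RingHom.ker (Ch.ch2 Q γ c hγc hr) ≤ RingHom.ker (φ : _ →+* LaurentSeries C) := by
    rw [hker2]
    exact hker.ge
  obtain ⟨g, hg⟩ := exists_factor _ (Ch.ch2_surjective Q γ c hγc hr) _ hle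
  have hψ : ∀ y : K, Ch.ch2 Q γ c hγc hr (1 ⊗ₜ y) = Ch.ψ Q γ y := by
    intro y
    rw [Ch.ch2_tmul]
    have : pow2 Q.N Q.N_pos (1 : F2 C) = 1 := map_one _
    exact (congrArg (· * Ch.ψ Q γ y) this).trans (one_mul _)
  have hgK : ∀ y : K, g (Ch.ψ Q γ y) = φ (1 ⊗ₜ y) := by
    intro y
    rw [← hψ, hg]
    rfl
  have hgC : ∀ a : C, g (algebraMap C (F2 C) a) = algebraMap C (LaurentSeries C) a := by
    intro a
    have h1 := hgK (algebraMap C K a)
    rw [AlgHom.commutes] at h1
    rw [h1]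
    rw [one_tmul_algebraMap, AlgHom.commutes]
  have hγr : Ch.r0 ≤ ‖(γ : C)‖ ^ Q.N := by
    rw [← norm_pow, ← Units.val_pow_eq_pow_val, hγc]
    exact hr
  have hT0 : (TT C K) ≠ 0 := by
    intro h0
    have h1 : ord P.1 (TT C K) = 0 := (congrArg (ord P.1) h0).trans (ord_zero _)
    have h2 := P.2
    omega
  have hs : 0 < (g (iA2 (sA (C := C)))).order := by
    have h1 := hgK (TT C K)
    rw [Ch.map_T Q γ hγr, map_mul, hgC, map_pow g] at h1
    have h2 := congrArg HahnSeries.order h1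
    have ht2 : (t2 : F2 C) ≠ 0 :=
      (_root_.map_ne_zero (algebraMap (RatFunc C) (F2 C))).2 RatFunc.X_ne_zero
    have h3 : g (t2 : F2 C) ≠ 0 := (map_ne_zero_iff _ g.injective).2 ht2
    have h4 : algebraMap C (LaurentSeries C) ((γ : C) ^ Q.N) ≠ 0 := by
      rw [Ne, map_eq_zero_iff _ (algebraMap C (LaurentSeries C)).injective]
      exact pow_ne_zero _ γ.ne_zero
    rw [HahnSeries.order_mul h4 (pow_ne_zero _ h3), order_algebraMap, zero_add,
      HahnSeries.order_pow, nsmul_eq_mul, hord _ hT0] at h2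
    have h5 := P.2
    have h6 : (g (t2 : F2 C)).order < 0 := by
      by_contra h7
      push Not at h7
      have : (0 : ℤ) ≤ (Q.N : ℤ) * (g (t2 : F2 C)).order := by positivity
      omega
    have h8 : g (t2 : F2 C) * g (iA2 (sA (C := C))) = 1 := by
      rw [← map_mul, ← s_eq, ← t2, mul_inv_cancel₀ ht2, map_one]
    have h9 := congrArg HahnSeries.order h8
    rw [HahnSeries.order_mul h3 (right_ne_zero_of_mul (h8.trans_ne one_ne_zero)),
      HahnSeries.order_one] at h9
    omega
  classical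
  by_contra hne
  have hne' : Q.1 ≠ P.1 := fun h => hne (by rw [Subtype.ext h])
  obtain ⟨y, hy0, hy⟩ := exists_ord_eq {Q.1, P.1} (fun R => if R = Q.1 then 0 else -1)
  have hyQ := hy Q.1 (by simp)
  have hyP := hy P.1 (by simp)
  rw [if_pos rfl] at hyQ
  rw [if_neg hne'.symm] at hyP
  have h1 := order_hom hgC hs (h := Ch.ψ Q γ y) ((map_ne_zero_iff _ (Ch.ψ Q γ).injective).2 hy0)
  rw [hgK, hord y hy0, hyP, Ch.order_eq Q γ hγr y hy0, hyQ, zero_mul] at h1
  omega

/-- covers at all poles give covers at all points of `D(K)` -/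
theorem rnsd_all (Ch : Charts C K) (c : Cˣ) (hr : Ch.r0 ≤ ‖(c : C)‖) {N l : ℕ}
    (h : ∀ P : Pole C K, RNSat C N l P.1 c) (d : Pt (RatFunc C) (F2r C c) K) : RNSd N l c d := by
  obtain ⟨P, rfl⟩ := (Ch.dP_bijective c hr).2 d
  exact rnsd_of_rnsat (h P) fun d' hd' => onD_unique Ch c hr P hd'

/-- the component of a pole -/
theorem onD_dP (Ch : Charts C K) (c : Cˣ) (hr : Ch.r0 ≤ ‖(c : C)‖) (P : Pole C K) :
    OnD C c P.1 (Ch.dP c hr P) := by
  obtain ⟨γ, hγc⟩ := exists_root_unit c P.N_pos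
  have hγr : Ch.r0 ≤ ‖(γ : C)‖ ^ P.N := by
    rw [← norm_pow, ← Units.val_pow_eq_pow_val, hγc]
    exact hr
  refine ⟨AlgHom.mk ((lamInf (C := C) : F2 C →+* LaurentSeries C).comp
    (Ch.ch2 P γ c hγc hr)) ?_, ?_, ?_⟩
  · intro a
    have h1 : Ch.ch2 P γ c hγc hr (algebraMap C (F2r C c ⊗[RatFunc C] K) a) =
        algebraMap C (F2 C) a := by
      rw [← one_tmul_algebraMap, Ch.ch2_tmul]
      have : pow2 P.N P.N_pos (1 : F2 C) = 1 := map_one _
      refine (congrArg (· * Ch.ψ P γ (algebraMap C K a)) this).trans ?_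
      rw [one_mul, AlgHom.commutes]
    change lamInf (Ch.ch2 P γ c hγc hr (algebraMap C (F2r C c ⊗[RatFunc C] K) a)) = _
    rw [h1, AlgHom.commutes]
  · rw [← Ch.ker_ch2 P γ c hγc hr]
    ext x
    change lamInf (Ch.ch2 P γ c hγc hr x) = 0 ↔ Ch.ch2 P γ c hγc hr x = 0
    exact map_eq_zero_iff (lamInf (C := C)) (lamInf (C := C)).toRingHom.injective
  · intro y hy
    change (lamInf (Ch.ch2 P γ c hγc hr (1 ⊗ₜ y))).order = _
    have h1 : Ch.ch2 P γ c hγc hr (1 ⊗ₜ y) = Ch.ψ P γ y := by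
      rw [Ch.ch2_tmul]
      have : pow2 P.N P.N_pos (1 : F2 C) = 1 := map_one _
      exact (congrArg (· * Ch.ψ P γ y) this).trans (one_mul _)
    rw [h1, Ch.order_eq P γ hγr y hy]

end main

end P025H16
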