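import Vale.Agent.P025.R2.H16.ResW
import Vale.Agent.P025.R2.H587.HTDefs
import Vale.Agent.P025.R2.H613.Wind
import Vale.Agent.P025.R2.H628.Rad

/-!
# Windings of a system at an edge tend to a linear form of its Hodge-Tate form
(helper16, P025 G-RANK2)
-/

universe u

open TensorProduct P025H373 P025H544 P025H628 P025H613 P025H587 Filter Topology

namespace P025H16

section

variable {C : Type u} [NontriviallyNormedField C] [IsUltrametricDist C] [CompleteSpace C]
  [IsAlgClosed C] [CharZero C]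

/-- `tendsto_wind` with explicit homomorphisms -/
theorem tendsto_wind_hom {Z E : Type*} [Field Z] [Field E] [Algebra C Z] [Algebra (F0 C) E]
    [FiniteDimensional (F0 C) E] (j : RatFunc C →ₐ[C] Z)
    (hj : ∀ z : Z, ∃ P : Polynomial (RatFunc C), P ≠ 0 ∧ P.eval₂ j.toRingHom z = 0) (ι : Z →+* E)
    (hc : ∀ a : RatFunc C, ι (j a) = algebraMap (F0 C) E (algebraMap (RatFunc C) (F0 C) a))
    (D : Derivation C Z Z) (hu : D (j RatFunc.X) ≠ 0) {f : ℕ → Z}
    (hf : ∀ m, f m ≠ 0) (θ : Z) {A r : ℝ} (hr0 : 0 ≤ r) (hr : r < 1)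
    (hA : ∀ m, snAbs C E (ι (D (f m) / f m - θ)) ≤ A * r ^ m) :
    Tendsto (fun m => (wind C (Algebra.norm (F0 C) (ι (f m))) : C)) atTop
      (𝓝 (res C (Algebra.trace (F0 C) E (ι θ / ι (D (j RatFunc.X)))))) := by
  letI : Algebra (RatFunc C) Z := j.toRingHom.toAlgebra
  letI : Algebra Z E := ι.toAlgebra
  haveI : IsScalarTower C (RatFunc C) Z := IsScalarTower.of_algebraMap_eq fun a => (j.commutes a).symm
  haveI : Algebra.IsAlgebraic (RatFunc C) Z := ⟨fun z => by
    obtain ⟨P, hP, hz⟩ := hj z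
    exact ⟨P, hP, hz⟩⟩
  exact tendsto_wind (C := C) (Z := Z) (E := E) hc D hu hf θ hr0 hr hA

/-- a nonzero derivation does not kill `T` -/
theorem der_X_ne_zero {Z : Type*} [Field Z] [Algebra C Z] [Algebra (RatFunc C) Z]
    [IsScalarTower C (RatFunc C) Z] [Algebra.IsAlgebraic (RatFunc C) Z] {D : Derivation C Z Z}
    (hD : D ≠ 0) : D (algebraMap (RatFunc C) Z RatFunc.X) ≠ 0 := by
  intro h
  apply hD
  have h1 : ∀ a : RatFunc C, D (algebraMap (RatFunc C) Z a) = 0 := fun a =>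
    der_ratFunc_eq_zero (D.compAlgebraMap (RatFunc C)) h a
  have : CharZero (RatFunc C) :=
    charZero_of_injective_algebraMap (algebraMap C (RatFunc C)).injective
  ext z
  have h2 := der_agree (R := C) (F := RatFunc C) (Z := Z) (E := Z) D 0 (fun a => by
    rw [h1]; simp) z
  simpa using h2

variable (C) in
/-- the winding number on `F0r C c` -/
noncomputable def Wr (c : Cˣ) (x : F0r C c) : ℤ := wind C (show F0 C from x)

theorem isWind_Wr (c : Cˣ) : IsWind (Wr C c) := ⟨fun x y hx hy => wind_mul (C := C) hx hy⟩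

variable {Z : Type u} [Field Z] [Algebra C Z] [Algebra (RatFunc C) Z]
  [IsScalarTower C (RatFunc C) Z] [FiniteDimensional (RatFunc C) Z]

theorem scale_symm_X (c : Cˣ) :
    (scale (c : C) c.ne_zero).symm RatFunc.X = RatFunc.C ((c⁻¹ : Cˣ) : C) * RatFunc.X := by
  rw [AlgEquiv.symm_apply_eq, map_mul, scale_X]
  have : scale (c : C) c.ne_zero (RatFunc.C ((c⁻¹ : Cˣ) : C)) = RatFunc.C ((c⁻¹ : Cˣ) : C) :=
    (scale (c : C) c.ne_zero).commutes _
  rw [this, ← mul_assoc, ← map_mul, Units.inv_mul, map_one, one_mul]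

/-- **The windings of a system at an edge tend to the value of a linear form at its Hodge-Tate
form.** -/
theorem exists_resForm {p : ℕ} (hp1 : ‖(p : C)‖ < 1) (c : Cˣ)
    (e : Pt (RatFunc C) (F0r C c) Z) {D : Derivation C Z Z} (hD : D ≠ 0) :
    ∃ R : Z →ₗ[C] C, ∀ (f : ℕ → Z) (θ : Z), (∀ m, f m ≠ 0) → IsTheta p D f θ →
      Tendsto (fun m => (wd (Wr C c) e (1 ⊗ₜ f m) : C)) atTop (𝓝 (R θ)) := by
  let A := F0r C c ⊗[RatFunc C] Z
  haveI hfin : FiniteDimensional (F0r C c) (F0r C c ⊗[RatFunc C] Z) := inferInstance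
  haveI : IsArtinianRing (F0r C c ⊗[RatFunc C] Z) := IsArtinianRing.of_finite (F0r C c) _
  haveI hmax : e.asIdeal.IsMaximal := inferInstance
  letI : Field ((F0r C c ⊗[RatFunc C] Z) ⧸ e.asIdeal) := Ideal.Quotient.field e.asIdeal
  letI : Algebra (F0 C) ((F0r C c ⊗[RatFunc C] Z) ⧸ e.asIdeal) :=
    (inferInstance : Algebra (F0r C c) ((F0r C c ⊗[RatFunc C] Z) ⧸ e.asIdeal))
  haveI : FiniteDimensional (F0 C) ((F0r C c ⊗[RatFunc C] Z) ⧸ e.asIdeal) :=
    (inferInstance : FiniteDimensional (F0r C c) ((F0r C c ⊗[RatFunc C] Z) ⧸ e.asIdeal))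
  let ι : Z →+* (F0r C c ⊗[RatFunc C] Z) ⧸ e.asIdeal :=
    (Ideal.Quotient.mk e.asIdeal).comp
      (Algebra.TensorProduct.includeRight : Z →ₐ[RatFunc C] F0r C c ⊗[RatFunc C] Z).toRingHom
  let j : RatFunc C →ₐ[C] Z := (IsScalarTower.toAlgHom C (RatFunc C) Z).comp
    ((scale (c : C) c.ne_zero).symm : RatFunc C →ₐ[C] RatFunc C)
  have hjs : ∀ a : RatFunc C, j (scale (c : C) c.ne_zero a) = algebraMap (RatFunc C) Z a := by
    intro a
    change algebraMap (RatFunc C) Z ((scale (c : C) c.ne_zero).symm _) = _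
    rw [AlgEquiv.symm_apply_apply]
  have hιF : ∀ a : RatFunc C, ι (algebraMap (RatFunc C) Z a) =
      algebraMap (F0 C) ((F0r C c ⊗[RatFunc C] Z) ⧸ e.asIdeal)
        (algebraMap (RatFunc C) (F0 C) (scale (c : C) c.ne_zero a)) := by
    intro a
    change Ideal.Quotient.mk e.asIdeal ((1 : F0r C c) ⊗ₜ[RatFunc C] (algebraMap (RatFunc C) Z a)) =
      Ideal.Quotient.mk e.asIdeal ((algebraMap (RatFunc C) (F0r C c) a) ⊗ₜ[RatFunc C] (1 : Z))
    rw [Algebra.algebraMap_eq_smul_one, Algebra.algebraMap_eq_smul_one, TensorProduct.smul_tmul]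
  have hc : ∀ a : RatFunc C, ι (j a) =
      algebraMap (F0 C) ((F0r C c ⊗[RatFunc C] Z) ⧸ e.asIdeal)
        (algebraMap (RatFunc C) (F0 C) a) := by
    intro a
    obtain ⟨b, rfl⟩ := (scale (c : C) c.ne_zero).surjective a
    rw [hjs, hιF]
  have hj : ∀ z : Z, ∃ P : Polynomial (RatFunc C), P ≠ 0 ∧ P.eval₂ j.toRingHom z = 0 := by
    intro z
    refine ⟨(minpoly (RatFunc C) z).map (scale (c : C) c.ne_zero : RatFunc C →+* RatFunc C), ?_, ?_⟩
    · exact Polynomial.map_ne_zero (minpoly.ne_zero (Algebra.IsIntegral.isIntegral z))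
    · rw [Polynomial.eval₂_map]
      have : j.toRingHom.comp (scale (c : C) c.ne_zero : RatFunc C →+* RatFunc C) =
          algebraMap (RatFunc C) Z := by
        ext1 a
        exact hjs a
      rw [this]
      exact minpoly.aeval (RatFunc C) z
  have hu : D (j RatFunc.X) ≠ 0 := by
    have h1 : j RatFunc.X = ((c⁻¹ : Cˣ) : C) • algebraMap (RatFunc C) Z RatFunc.X := by
      change algebraMap (RatFunc C) Z ((scale (c : C) c.ne_zero).symm RatFunc.X) = _
      rw [scale_symm_X, map_mul, Algebra.smul_def]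
      congr 1
      exact (IsScalarTower.algebraMap_apply C (RatFunc C) Z _).symm
    rw [h1, D.map_smul]
    exact smul_ne_zero (Units.ne_zero _) (der_X_ne_zero hD)
  have hιC : ∀ a : C, ι (algebraMap C Z a) =
      algebraMap (F0 C) ((F0r C c ⊗[RatFunc C] Z) ⧸ e.asIdeal) (algebraMap C (F0 C) a) := by
    intro a
    rw [← j.commutes a, hc]
    rfl
  refine ⟨
    { toFun := fun θ => res C (Algebra.trace (F0 C) _ (ι θ / ι (D (j RatFunc.X))))
      map_add' := fun x y => by rw [map_add, add_div, map_add, map_add]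
      map_smul' := fun a x => by
        have h1 : ι (a • x) / ι (D (j RatFunc.X)) =
            (algebraMap C (F0 C) a) • (ι x / ι (D (j RatFunc.X))) := by
          rw [Algebra.smul_def, map_mul, hιC, Algebra.smul_def, mul_div_assoc]
        have h2 : (algebraMap C (F0 C) a) • (Algebra.trace (F0 C) _ (ι x / ι (D (j RatFunc.X)))) =
            a • (Algebra.trace (F0 C) _ (ι x / ι (D (j RatFunc.X)))) := by
          rw [Algebra.smul_def, Algebra.smul_def]
          rfl
        rw [h1, map_smul, h2, map_smul]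
        rfl }, ?_⟩
  intro f θ hf hθ
  have hna : IsNm C ((snAbs C ((F0r C c ⊗[RatFunc C] Z) ⧸ e.asIdeal)).comp ι.injective) := by
    refine ⟨fun x y => ?_, fun a => ?_⟩
    · change snAbs C _ (ι (x + y)) ≤ _
      rw [map_add]
      exact snAbs_na _ _ _
    · change snAbs C _ (ι (algebraMap C Z a)) = _
      rw [hιC, snAbs_algebraMap, norm_algebraMap_C]
  obtain ⟨B, hB⟩ := hθ _ hna
  exact tendsto_wind_hom j hj ι hc D hu hf θ (norm_nonneg _) hp1 hB

end

end P025H16
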